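import Vale.Agent.P097.H330.LogDer

/-! P097, case [d]: first and second logarithmic derivatives on a good circle. -/

namespace Vale.Agent.P097.H690.LD

open Complex Metric Set

/-- the product of the linear factors -/
noncomputable def pz (s : List ℂ) (z : ℂ) : ℂ := (s.map (fun a => z - a)).prod

/-- the logarithmic derivative of the product -/
noncomputable def sg (s : List ℂ) (z : ℂ) : ℂ := (s.map (fun a => (z - a)⁻¹)).sum

theorem pz_cons (a : ℂ) (s : List ℂ) (z : ℂ) : pz (a :: s) z = (z - a) * pz s z := by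
  simp [pz]

theorem sg_cons (a : ℂ) (s : List ℂ) (z : ℂ) : sg (a :: s) z = (z - a)⁻¹ + sg s z := by
  simp [sg]

theorem pz_ne {s : List ℂ} {z : ℂ} (h : ∀ a ∈ s, z ≠ a) : pz s z ≠ 0 := by
  induction s with
  | nil => simp [pz]
  | cons a s ih =>
    rw [pz_cons]
    exact mul_ne_zero (sub_ne_zero.2 (h a (by simp))) (ih fun b hb => h b (by simp [hb]))

theorem pz_hasDerivAt {s : List ℂ} {z : ℂ} (h : ∀ a ∈ s, z ≠ a) :
    HasDerivAt (pz s) (sg s z * pz s z) z := by
  induction s with
  | nil =>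
    have : pz [] = fun _ => (1 : ℂ) := by funext w; simp [pz]
    rw [this]
    simpa [sg] using hasDerivAt_const z (1 : ℂ)
  | cons a s ih =>
    have h1 := ih fun b hb => h b (by simp [hb])
    have h2 : z - a ≠ 0 := sub_ne_zero.2 (h a (by simp))
    have h3 : HasDerivAt (fun w => (w - a) * pz s w) (1 * pz s z + (z - a) * (sg s z * pz s z)) z :=
      ((hasDerivAt_id z).sub_const a).mul h1
    have h4 : pz (a :: s) = fun w => (w - a) * pz s w := by funext w; exact pz_cons a s w
    rw [h4]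
    refine h3.congr_deriv ?_
    rw [sg_cons]
    field_simp

theorem sg_bound {s : List ℂ} {z : ℂ} {d : ℝ} (hd : 0 < d) (h : ∀ a ∈ s, d ≤ ‖z - a‖) :
    ‖sg s z‖ ≤ s.length / d := by
  induction s with
  | nil => simp [sg]
  | cons a s ih =>
    rw [sg_cons, List.length_cons]
    refine (norm_add_le _ _).trans ?_
    have h1 := ih fun b hb => h b (by simp [hb])
    have h2 : ‖(z - a)⁻¹‖ ≤ 1 / d := by
      rw [norm_inv, ← one_div]
      exact one_div_le_one_div_of_le hd (h a (by simp))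
    push_cast
    rw [add_div]
    linarith

theorem pz_lower {s : List ℂ} {z : ℂ} {d : ℝ} (hd : 0 ≤ d) (h : ∀ a ∈ s, d ≤ ‖z - a‖) :
    d ^ s.length ≤ ‖pz s z‖ := by
  induction s with
  | nil => simp [pz]
  | cons a s ih =>
    rw [pz_cons, List.length_cons, pow_succ, norm_mul, mul_comm]
    exact mul_le_mul (h a (by simp)) (ih fun b hb => h b (by simp [hb])) (by positivity)
      (norm_nonneg _)

theorem pz_upper {s : List ℂ} {z : ℂ} {d : ℝ} (hd : 0 ≤ d) (h : ∀ a ∈ s, ‖z - a‖ ≤ d) :
    ‖pz s z‖ ≤ d ^ s.length := by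
  induction s with
  | nil => simp [pz]
  | cons a s ih =>
    rw [pz_cons, List.length_cons, pow_succ, norm_mul, mul_comm]
    exact mul_le_mul (ih fun b hb => h b (by simp [hb])) (h a (by simp)) (norm_nonneg _)
      (by positivity)

/-- the state of dividing out zeros -/
structure Fc (f : ℂ → ℂ) (c : ℂ) (R : ℝ) (s : List ℂ) (h : ℂ → ℂ) : Prop where
  an : DifferentiableOn ℂ h (ball c R)
  mem : ∀ a ∈ s, a ∈ closedBall c (R / 4)
  fac : ∀ z, f z = pz s z * h z

theorem Fc.step {f : ℂ → ℂ} {c : ℂ} {R : ℝ} {s : List ℂ} {h : ℂ → ℂ} (hR : 0 < R)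
    (H : Fc f c R s h) {a : ℂ} (ha : a ∈ closedBall c (R / 4)) (h0 : h a = 0) :
    Fc f c R (a :: s) (dslope h a) := by
  have haR : a ∈ ball c R := by
    rw [mem_closedBall] at ha
    rw [mem_ball]; linarith
  refine ⟨?_, ?_, ?_⟩
  · rw [Complex.differentiableOn_dslope (isOpen_ball.mem_nhds haR)]
    exact H.an
  · intro b hb
    rcases List.mem_cons.1 hb with rfl | hb
    · exact ha
    · exact H.mem b hb
  · intro z
    have h1 := sub_smul_dslope h a z
    rw [h0, sub_zero, smul_eq_mul] at h1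
    rw [H.fac z, pz_cons, ← h1]
    ring

theorem Fc.bound {f : ℂ → ℂ} {c : ℂ} {R D : ℝ} {s : List ℂ} {h : ℂ → ℂ} (hR : 0 < R)
    (hb : ∀ z ∈ ball c R, ‖f z‖ ≤ Real.exp D) (hc : 1 ≤ ‖f c‖) (H : Fc f c R s h) :
    (∀ z ∈ closedBall c (3 * R / 4), ‖h z‖ * 2 ^ s.length ≤ Real.exp D * ‖h c‖) ∧
      (2 : ℝ) ^ s.length ≤ Real.exp D := by
  have hhc : (4 / R) ^ s.length ≤ ‖h c‖ := by
    have h1 : ‖f c‖ = ‖pz s c‖ * ‖h c‖ := by rw [H.fac c, norm_mul]
    have h2 : ‖pz s c‖ ≤ (R / 4) ^ s.length := pz_upper (by positivity) fun a ha => by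
      have := H.mem a ha
      rwa [mem_closedBall, dist_comm, dist_eq_norm] at this
    have h3 : 1 ≤ (R / 4) ^ s.length * ‖h c‖ := by
      calc (1 : ℝ) ≤ ‖pz s c‖ * ‖h c‖ := by rw [← h1]; exact hc
        _ ≤ _ := by gcongr
    have h4 : (4 / R) ^ s.length * (R / 4) ^ s.length = 1 := by
      rw [← mul_pow]
      have : 4 / R * (R / 4) = 1 := by field_simp
      rw [this, one_pow]
    calc (4 / R) ^ s.length = (4 / R) ^ s.length * 1 := by ring
      _ ≤ (4 / R) ^ s.length * ((R / 4) ^ s.length * ‖h c‖) := by gcongr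
      _ = ‖h c‖ := by rw [← mul_assoc, h4, one_mul]
  have hmax : ∀ z ∈ closedBall c (3 * R / 4), ‖h z‖ ≤ Real.exp D * (2 / R) ^ s.length := by
    intro z hz
    have hR' : (3 * R / 4) ≠ 0 := by positivity
    refine Complex.norm_le_of_forall_mem_frontier_norm_le (U := ball c (3 * R / 4))
      isBounded_ball ?_ ?_ ?_
    · refine DifferentiableOn.diffContOnCl ?_
      rw [closure_ball _ hR']
      exact H.an.mono fun w hw => by
        rw [mem_closedBall] at hw
        rw [mem_ball]; linarith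
    · intro w hw
      rw [frontier_ball _ hR', mem_sphere, dist_eq_norm] at hw
      have h1 : ‖f w‖ = ‖pz s w‖ * ‖h w‖ := by rw [H.fac w, norm_mul]
      have h2 : (R / 2) ^ s.length ≤ ‖pz s w‖ := pz_lower (by positivity) fun a ha => by
        have h3 := H.mem a ha
        rw [mem_closedBall, dist_eq_norm] at h3
        have h4 : ‖w - c‖ ≤ ‖w - a‖ + ‖a - c‖ := by
          have := norm_add_le (w - a) (a - c)
          simpa using this
        linarith
      have h5 : ‖f w‖ ≤ Real.exp D := hb w (by rw [mem_ball, dist_eq_norm, hw]; linarith)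
      have h6 : (2 / R) ^ s.length * (R / 2) ^ s.length = 1 := by
        rw [← mul_pow]
        have : 2 / R * (R / 2) = 1 := by field_simp
        rw [this, one_pow]
      calc ‖h w‖ = (2 / R) ^ s.length * ((R / 2) ^ s.length * ‖h w‖) := by
            rw [← mul_assoc, h6, one_mul]
        _ ≤ (2 / R) ^ s.length * (‖pz s w‖ * ‖h w‖) := by gcongr
        _ = (2 / R) ^ s.length * ‖f w‖ := by rw [h1]
        _ ≤ (2 / R) ^ s.length * Real.exp D := by gcongr
        _ = _ := by ring
    · rw [closure_ball _ hR']; exact hz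
  have e1 : (2 / R) ^ s.length * 2 ^ s.length = (4 / R) ^ s.length := by
    rw [← mul_pow]; congr 1; ring
  refine ⟨fun z hz => ?_, ?_⟩
  · calc ‖h z‖ * 2 ^ s.length ≤ Real.exp D * (2 / R) ^ s.length * 2 ^ s.length := by
          gcongr; exact hmax z hz
      _ = Real.exp D * (4 / R) ^ s.length := by rw [mul_assoc, e1]
      _ ≤ _ := by gcongr
  · have h1 := hhc.trans (hmax c (mem_closedBall_self (by positivity)))
    rw [← e1] at h1
    have h2 : 0 < (2 / R) ^ s.length := by positivity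
    have h3 : (2 / R) ^ s.length * 2 ^ s.length ≤ (2 / R) ^ s.length * Real.exp D := by
      rw [mul_comm ((2 / R) ^ s.length) (Real.exp D)]; exact h1
    exact le_of_mul_le_mul_left h3 h2

theorem exists_fc {f : ℂ → ℂ} {c : ℂ} {R D : ℝ} (hR : 0 < R)
    (hf : DifferentiableOn ℂ f (ball c R))
    (hb : ∀ z ∈ ball c R, ‖f z‖ ≤ Real.exp D) (hc : 1 ≤ ‖f c‖) :
    ∃ (s : List ℂ) (h : ℂ → ℂ), Fc f c R s h ∧ ∀ z ∈ closedBall c (R / 4), h z ≠ 0 := by
  by_contra hno
  push Not at hno
  have hall : ∀ n : ℕ, ∃ (s : List ℂ) (h : ℂ → ℂ), Fc f c R s h ∧ s.length = n := by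
    intro n
    induction n with
    | zero => exact ⟨[], f, ⟨hf, by simp, fun z => by simp [pz]⟩, rfl⟩
    | succ n ih =>
      obtain ⟨s, h, hs, hl⟩ := ih
      obtain ⟨a, ha, hHa⟩ := hno s h hs
      exact ⟨a :: s, dslope h a, hs.step hR ha hHa, by simp [hl]⟩
  obtain ⟨n, hn⟩ := exists_nat_gt (Real.exp D)
  obtain ⟨s, h, hs, hl⟩ := hall n
  have h1 := (hs.bound hR hb hc).2
  rw [hl] at h1
  have h2 : (n : ℝ) < 2 ^ n := by exact_mod_cast Nat.lt_two_pow_self
  linarith

/-- among `N + 1` equidistant radii there is one far from `N` given numbers -/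
theorem good_radius (l : List ℝ) {A δ : ℝ} (hδ : 0 < δ) :
    ∃ j : ℕ, j ≤ l.length ∧ ∀ x ∈ l, δ ≤ |x - (A + (2 * j + 1) * δ)| := by
  by_contra hno
  push Not at hno
  have h1 : ∀ j ∈ Finset.range (l.length + 1), ∃ x ∈ l.toFinset,
      |x - (A + (2 * j + 1) * δ)| < δ := by
    intro j hj
    obtain ⟨x, hx, h⟩ := hno j (by simpa [Nat.lt_succ_iff] using hj)
    exact ⟨x, by simpa using hx, h⟩
  choose! g hg hg' using h1
  have h2 : l.toFinset.card < (Finset.range (l.length + 1)).card := by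
    rw [Finset.card_range]
    exact Nat.lt_succ_of_le l.toFinset_card_le
  obtain ⟨i, hi, j, hj, hij, he⟩ := Finset.exists_ne_map_eq_of_card_lt_of_maps_to h2 hg
  have h3 := hg' i hi
  have h4 := hg' j hj
  rw [he] at h3
  rw [abs_lt] at h3 h4
  rcases lt_or_gt_of_ne hij with h | h
  · have : (i : ℝ) + 1 ≤ j := by exact_mod_cast h
    nlinarith
  · have : (j : ℝ) + 1 ≤ i := by exact_mod_cast h
    nlinarith

/-- **first and second logarithmic derivatives on a good circle** -/
theorem logder {f : ℂ → ℂ} {c : ℂ} {R D : ℝ} (hR : 0 < R) (hD : 0 ≤ D)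
    (hf : DifferentiableOn ℂ f (ball c R))
    (hb : ∀ z ∈ ball c R, ‖f z‖ ≤ Real.exp D) (hc : 1 ≤ ‖f c‖) :
    ∃ r : ℝ, R / 16 ≤ r ∧ r ≤ R / 8 ∧ ∀ z ∈ sphere c r, f z ≠ 0 ∧
      ‖deriv f z‖ ≤ 300 * (D + 1) ^ 2 / R * ‖f z‖ ∧
      ‖deriv (deriv f) z‖ ≤ 200000 * (D + 1) ^ 4 / R ^ 2 * ‖f z‖ := by
  obtain ⟨s, h, H, hne⟩ := exists_fc hR hf hb hc
  obtain ⟨hmx, hcard⟩ := H.bound hR hb hc
  set N : ℝ := (s.length : ℝ) with hN
  have hN0 : 0 ≤ N := by positivity
  have hND : N ≤ 3 / 2 * D := by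
    have h1 := Real.log_le_log (by positivity) hcard
    rw [Real.log_exp, Real.log_pow] at h1
    have h2 := Real.log_two_gt_d9
    nlinarith
  -- h'/h
  have hld : ∀ z ∈ closedBall c (R / 8), ‖deriv h z / h z‖ ≤ 128 * (D + 1) / R := by
    intro z hz
    have hsh : DifferentiableOn ℂ (fun w => h (w + c)) (ball 0 (R / 4)) := by
      intro w hw
      have h1 : w + c ∈ ball c R := by
        rw [mem_ball, dist_zero_right] at hw
        rw [mem_ball, dist_eq_norm]; simp; linarith
      have h2 : DifferentiableAt ℂ h (w + c) := (H.an.differentiableAt (isOpen_ball.mem_nhds h1))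
      exact (h2.comp w (by fun_prop : DifferentiableAt ℂ (fun w => w + c) w)).differentiableWithinAt
    have h3 := H330.logDeriv_zero_free (H := fun w => h (w + c)) (R := R / 8) (S := R / 4)
      (B := D + 1) (by positivity) (by linarith) hsh (fun w hw => hne _ (by
        rw [mem_ball, dist_zero_right] at hw
        rw [mem_closedBall, dist_eq_norm]; simp; linarith)) (by positivity) (fun w hw => by
        rw [mem_ball, dist_zero_right] at hw
        have h4 := hmx (w + c) (by rw [mem_closedBall, dist_eq_norm]; simp; linarith)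
        have h5 : (1 : ℝ) ≤ 2 ^ s.length := one_le_pow₀ (by norm_num)
        simp only [zero_add]
        calc ‖h (w + c)‖ = ‖h (w + c)‖ * 1 := by ring
          _ ≤ ‖h (w + c)‖ * 2 ^ s.length := by gcongr
          _ ≤ Real.exp D * ‖h c‖ := h4
          _ ≤ Real.exp (D + 1) * ‖h c‖ := by gcongr; linarith)
      (z := z - c) (by rwa [mem_closedBall, dist_eq_norm] at hz)
    have h6 : deriv (fun w => h (w + c)) (z - c) = deriv h z := by
      rw [deriv_comp_add_const]; simp
    simp only [sub_add_cancel] at h3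
    rw [h6] at h3
    refine h3.trans (le_of_eq ?_)
    field_simp
    ring
  -- the good radius
  set δ : ℝ := R / (32 * (N + 1)) with hδd
  have hδ : 0 < δ := by positivity
  have hδR : δ * (32 * (N + 1)) = R := by rw [hδd]; field_simp
  obtain ⟨j, hj, hjg⟩ := good_radius (s.map fun a => ‖a - c‖) (A := R / 16) hδ
  rw [List.length_map] at hj
  have hj' : (j : ℝ) ≤ N := by rw [hN]; exact_mod_cast hj
  set r : ℝ := R / 16 + (2 * j + 1) * δ with hr
  have hj0 : (0 : ℝ) ≤ j := by positivity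
  have hr1 : R / 16 + δ ≤ r := by rw [hr]; nlinarith
  have hr2 : r + δ ≤ R / 8 := by
    rw [hr]
    have : (2 * (j : ℝ) + 2) * δ ≤ (2 * N + 2) * δ := by gcongr
    nlinarith
  -- the annulus
  have hann : ∀ z : ℂ, |‖z - c‖ - r| ≤ δ / 2 → (∀ a ∈ s, δ / 2 ≤ ‖z - a‖) ∧
      z ∈ closedBall c (R / 8) := by
    intro z hz
    rw [abs_le] at hz
    refine ⟨fun a ha => ?_, ?_⟩
    · have h1 := hjg ‖a - c‖ (List.mem_map.2 ⟨a, ha, rfl⟩)
      have h2 : ‖z - c‖ ≤ ‖z - a‖ + ‖a - c‖ := by
        simpa using norm_add_le (z - a) (a - c)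
      have h3 : ‖a - c‖ ≤ ‖z - a‖ + ‖z - c‖ := by
        have := norm_sub_le (z - c) (z - a)
        simp only [sub_sub_sub_cancel_left] at this
        linarith
      rcases le_abs.1 h1 with h | h
      · linarith
      · linarith
    · rw [mem_closedBall, dist_eq_norm]; linarith
  set U : Set ℂ := {z | |‖z - c‖ - r| < δ / 2} with hU
  have hUo : IsOpen U := isOpen_lt (by fun_prop) continuous_const
  have hfd : ∀ z ∈ U, f z ≠ 0 ∧ HasDerivAt f ((sg s z + deriv h z / h z) * f z) z := by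
    intro z hz
    obtain ⟨h1, h2⟩ := hann z (le_of_lt hz)
    have h3 : ∀ a ∈ s, z ≠ a := by
      rintro a ha rfl
      have := h1 z ha
      rw [sub_self, norm_zero] at this
      linarith
    have h4 : z ∈ closedBall c (R / 4) := by
      rw [mem_closedBall] at h2 ⊢; linarith
    have h5 : z ∈ ball c R := by
      rw [mem_closedBall] at h2
      rw [mem_ball]; linarith
    have h6 : HasDerivAt h (deriv h z) z := (H.an.differentiableAt (isOpen_ball.mem_nhds h5)).hasDerivAt
    have h7 : HasDerivAt (fun w => pz s w * h w)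
        (sg s z * pz s z * h z + pz s z * deriv h z) z := (pz_hasDerivAt h3).mul h6
    have h8 : f = fun w => pz s w * h w := by funext w; exact H.fac w
    have h9 : h z ≠ 0 := hne z h4
    refine ⟨?_, ?_⟩
    · rw [H.fac z]; exact mul_ne_zero (pz_ne h3) h9
    · rw [h8]
      refine h7.congr_deriv ?_
      field_simp
  have hu : ∀ z : ℂ, |‖z - c‖ - r| ≤ δ / 2 → ‖sg s z + deriv h z / h z‖ ≤ 300 * (D + 1) ^ 2 / R := by
    intro z hz
    obtain ⟨h1, h2⟩ := hann z hz
    refine (norm_add_le _ _).trans ?_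
    have h3 := sg_bound (by positivity) h1
    have h4 := hld z h2
    have h5 : (s.length : ℝ) / (δ / 2) = 64 * N * (N + 1) / R := by
      rw [← hN, hδd]; field_simp; ring
    rw [h5] at h3
    have h6 : 64 * N * (N + 1) / R + 128 * (D + 1) / R ≤ 300 * (D + 1) ^ 2 / R := by
      rw [← add_div]
      gcongr
      nlinarith
    linarith
  refine ⟨r, by linarith, by linarith, fun z hz => ?_⟩
  rw [mem_sphere, dist_eq_norm] at hz
  have hzU : z ∈ U := by
    rw [hU, mem_ofPred_eq, hz, sub_self, abs_zero]; positivity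
  obtain ⟨hfz, hder⟩ := hfd z hzU
  have hzu : |‖z - c‖ - r| ≤ δ / 2 := le_of_lt hzU
  refine ⟨hfz, ?_, ?_⟩
  · rw [hder.deriv, norm_mul]
    gcongr
    exact hu z hzu
  · -- the second derivative
    set u : ℂ → ℂ := fun w => sg s w + deriv h w / h w with hudef
    have hev : deriv f =ᶠ[nhds z] fun w => u w * f w := by
      filter_upwards [hUo.mem_nhds hzU] with w hw
      exact (hfd w hw).2.deriv
    have hball : ball z (δ / 2) ⊆ U := by
      intro w hw
      rw [mem_ball, dist_eq_norm] at hw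
      rw [hU, mem_ofPred_eq, ← hz]
      have := abs_norm_sub_norm_le (w - c) (z - c)
      simp only [sub_sub_sub_cancel_right] at this
      linarith
    have hdu : DifferentiableOn ℂ u U := by
      intro w hw
      have hfw := (hfd w hw).1
      have h1 : (fun w => deriv f w / f w) =ᶠ[nhds w] u := by
        filter_upwards [hUo.mem_nhds hw] with v hv
        obtain ⟨h2, h3⟩ := hfd v hv
        rw [h3.deriv, mul_div_assoc, div_self h2, mul_one]
      obtain ⟨-, h2⟩ := hann w (le_of_lt hw)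
      have h5 : w ∈ ball c R := by
        rw [mem_closedBall] at h2
        rw [mem_ball]; linarith
      have h3 : DifferentiableAt ℂ (deriv f) w :=
        (hf.deriv isOpen_ball).differentiableAt (isOpen_ball.mem_nhds h5)
      have h4 : DifferentiableAt ℂ f w := hf.differentiableAt (isOpen_ball.mem_nhds h5)
      exact ((h3.div h4 hfw).congr_of_eventuallyEq h1.symm).differentiableWithinAt
    have hud : DifferentiableAt ℂ u z := hdu.differentiableAt (hUo.mem_nhds hzU)
    have hdd : HasDerivAt (fun w => u w * f w) (deriv u z * f z + u z * (u z * f z)) z :=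
      hud.hasDerivAt.mul hder
    rw [hev.deriv_eq, hdd.deriv]
    have hu' : ‖deriv u z‖ ≤ 300 * (D + 1) ^ 2 / R / (δ / 4) := by
      refine Complex.norm_deriv_le_of_forall_mem_sphere_norm_le (by positivity) ?_ ?_
      · refine DifferentiableOn.diffContOnCl ?_
        rw [closure_ball _ (by positivity)]
        exact hdu.mono ((closedBall_subset_ball (by linarith)).trans hball)
      · intro w hw
        have : w ∈ ball z (δ / 2) := by
          rw [mem_sphere] at hw
          rw [mem_ball, hw]; linarith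
        exact hu w (le_of_lt (hball this))
    have h1 : deriv u z * f z + u z * (u z * f z) = (deriv u z + u z ^ 2) * f z := by ring
    rw [h1, norm_mul]
    gcongr
    refine (norm_add_le _ _).trans ?_
    rw [norm_pow]
    have h2 : ‖u z‖ ^ 2 ≤ (300 * (D + 1) ^ 2 / R) ^ 2 := by
      gcongr
      exact hu z hzu
    have h3 : 300 * (D + 1) ^ 2 / R / (δ / 4) = 38400 * (D + 1) ^ 2 * (N + 1) / R ^ 2 := by
      rw [hδd]; field_simp; ring
    have h4 : (300 * (D + 1) ^ 2 / R) ^ 2 = 90000 * (D + 1) ^ 4 / R ^ 2 := by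
      field_simp; ring
    rw [h3] at hu'
    rw [h4] at h2
    have h5 : 38400 * (D + 1) ^ 2 * (N + 1) / R ^ 2 + 90000 * (D + 1) ^ 4 / R ^ 2 ≤
        200000 * (D + 1) ^ 4 / R ^ 2 := by
      rw [← add_div]
      gcongr
      have h6 : (D + 1) ^ 2 * (N + 1) ≤ (D + 1) ^ 2 * (3 / 2 * (D + 1) ^ 2) := by
        gcongr
        nlinarith
      nlinarith [sq_nonneg ((D + 1) ^ 2)]
    linarith

/-- **the quotient form**: `F f = f'' + β f'` -/
theorem logder_quot {f F : ℂ → ℂ} {c β : ℂ} {R D : ℝ} (hR : 0 < R) (hD : 0 ≤ D)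
    (hf : DifferentiableOn ℂ f (ball c R)) (hF : DifferentiableOn ℂ F (ball c R))
    (hb : ∀ z ∈ ball c R, ‖f z‖ ≤ Real.exp D) (hc : 1 ≤ ‖f c‖)
    (hq : ∀ z ∈ ball c R, F z * f z = deriv (deriv f) z + β * deriv f z) :
    ∀ z ∈ closedBall c (R / 16),
      ‖F z‖ ≤ 200000 * (D + 1) ^ 4 / R ^ 2 + ‖β‖ * (300 * (D + 1) ^ 2 / R) := by
  obtain ⟨r, hr1, hr2, hr⟩ := logder hR hD hf hb hc
  intro z hz
  have hr0 : 0 < r := by linarith
  refine Complex.norm_le_of_forall_mem_frontier_norm_le (U := ball c r)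
    isBounded_ball ?_ ?_ ?_
  · refine DifferentiableOn.diffContOnCl ?_
    rw [closure_ball _ hr0.ne']
    exact hF.mono (closedBall_subset_ball (by linarith))
  · intro w hw
    rw [frontier_ball _ hr0.ne'] at hw
    obtain ⟨h1, h2, h3⟩ := hr w hw
    have hwR : w ∈ ball c R := by
      rw [mem_sphere] at hw
      rw [mem_ball, hw]; linarith
    have h4 : 0 < ‖f w‖ := norm_pos_iff.2 h1
    have h5 : ‖F w‖ * ‖f w‖ ≤
        (200000 * (D + 1) ^ 4 / R ^ 2 + ‖β‖ * (300 * (D + 1) ^ 2 / R)) * ‖f w‖ := by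
      rw [← norm_mul, hq w hwR]
      refine (norm_add_le _ _).trans ?_
      rw [norm_mul, add_mul, mul_assoc]
      gcongr
    exact le_of_mul_le_mul_right h5 h4
  · rw [closure_ball _ hr0.ne']
    rw [mem_closedBall] at hz ⊢
    linarith

end Vale.Agent.P097.H690.LD
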