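import Vale.Agent.P097.H690.LD.RowC2

/-! # P097 / case [d], **Row C** (climb), literal form -/

set_option linter.all false

open Complex Metric Filter Topology Set

namespace Vale.Agent.P097.H690.LD

open Vale.Agent.P097 Vale.Agent.P097.SC Vale.Agent.P097.H133.Tm Vale.Agent.P097.CD

/-- labels -/
def W0 (r : ℝ) : Set ℂ := {w | 0 < w.im ∧ ‖w‖ < 10 * r ∧ ‖w‖ / 40 < w.im}

theorem mem_W0 {r : ℝ} {w : ℂ} : w ∈ W0 r ↔ 0 < w.im ∧ ‖w‖ < 10 * r ∧ ‖w‖ / 40 < w.im := Iff.rfl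

theorem sec_W0 {r : ℝ} (hr : 0 < r) : Sec (W0 r) 40 (10 * r) where
  op := by
    have h1 : IsOpen {u : ℂ | 0 < u.im} := isOpen_lt continuous_const continuous_im
    have h2 : IsOpen {u : ℂ | ‖u‖ < 10 * r} := isOpen_lt continuous_norm continuous_const
    have h3 : IsOpen {u : ℂ | ‖u‖ / 40 < u.im} :=
      isOpen_lt (continuous_norm.div_const _) continuous_im
    exact h1.inter (h2.inter h3)
  κ0 := by norm_num
  r0 := by positivity
  im := fun w hw => hw.1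
  re := fun w hw => by
    have h1 := Complex.abs_re_le_norm w
    have h2 := hw.2.2
    linarith
  nm := fun w hw => hw.2.1.le

/-- even extension from the upper labels -/
noncomputable def fe (f : ℂ × ℂ → ℂ) (u : ℂ × ℂ) : ℂ :=
  if 0 < u.2.im then f u else if u.2.im < 0 then f (u.1, -u.2) else 0

theorem fe_even (f : ℂ × ℂ → ℂ) (u : ℂ × ℂ) : fe f (u.1, -u.2) = fe f u := by
  simp only [fe, Complex.neg_im, neg_neg]
  by_cases h1 : 0 < u.2.im
  · rw [if_neg (by linarith), if_pos (by linarith), if_pos h1]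
  · by_cases h2 : u.2.im < 0
    · rw [if_pos (by linarith), if_neg h1, if_pos h2]
    · rw [if_neg (by linarith), if_neg (by linarith), if_neg h1, if_neg h2]

theorem fe_pos (f : ℂ × ℂ → ℂ) {u : ℂ × ℂ} (h : 0 < u.2.im) : fe f u = f u := by
  rw [fe, if_pos h]

section

variable {Λ : ℝ} {F q Q : ℂ → ℂ} {c : ℂ} {D r v K ε₁ : ℝ}

/-- numerical facts -/
structure Nu (c : ℂ) (D r v K : ℝ) : Prop where
  D0 : 0 < D
  r0 : 0 < r
  v1 : 1 ≤ v
  K1 : 400 * (v + 60) ≤ K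
  K2 : K * r ≤ 1 / 10000000 * D

theorem Nu.r' (n : Nu c D r v K) : 0 < K ∧ 10000000 * (K * r) ≤ D ∧ 24400 * r * 10000000 ≤ D ∧
    400 * (v + 60) * D ≤ K * D := by
  have h1 := n.K1
  have h2 := n.K2
  have h3 := n.v1
  have h4 := n.r0
  have h5 := n.D0
  have hK : 24400 ≤ K := by linarith
  refine ⟨by linarith, by linarith, by nlinarith, ?_⟩
  exact mul_le_mul_of_nonneg_right h1 h5.le

theorem mem_LoR {u : ℂ × ℂ} : u ∈ LoR c D r v K ↔ |(u.1 - c).re| < K * D / 2 ∧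
    -(v + 2) * D < (u.1 - c).im ∧ (u.1 - c).im < -v * D ∧ ‖u.2‖ < 10 * r := Iff.rfl

theorem mem_UpR {u : ℂ × ℂ} : u ∈ UpR c D r v ↔ |(u.1 - c).re| < 50 * D ∧
    -(v + 2) * D < (u.1 - c).im ∧ (u.1 - c).im < 50 * D ∧
    ‖u.2‖ < 10 * r ∧ ‖u.2‖ / 40 < |u.2.im| := Iff.rfl

theorem isOpen_UpR : IsOpen (UpR c D r v) := by
  have h1 : IsOpen {u : ℂ × ℂ | |(u.1 - c).re| < 50 * D} :=
    isOpen_lt ((continuous_re.comp (continuous_fst.sub continuous_const)).abs) continuous_const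
  have h2 : IsOpen {u : ℂ × ℂ | -(v + 2) * D < (u.1 - c).im} :=
    isOpen_lt continuous_const (continuous_im.comp (continuous_fst.sub continuous_const))
  have h3 : IsOpen {u : ℂ × ℂ | (u.1 - c).im < 50 * D} :=
    isOpen_lt (continuous_im.comp (continuous_fst.sub continuous_const)) continuous_const
  have h4 : IsOpen {u : ℂ × ℂ | ‖u.2‖ < 10 * r} :=
    isOpen_lt continuous_snd.norm continuous_const
  have h5 : IsOpen {u : ℂ × ℂ | ‖u.2‖ / 40 < |u.2.im|} :=
    isOpen_lt (continuous_snd.norm.div_const _) ((continuous_im.comp continuous_snd).abs)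
  exact h1.inter (h2.inter (h3.inter (h4.inter h5)))

/-- `|Re (t - c)| < K D / 4` and the margins `20 r` -/
theorem mg_LoR (n : Nu c D r v K) {u : ℂ × ℂ}
    (hu : u ∈ S0 c.re (K * D / 4) (c.im - (v + 2) * D + 20 * r) (c.im - v * D - 20 * r) (W0 r)) :
    Mg (LoR c D r v K) r u := by
  obtain ⟨h1, h2, h3, h4⟩ := hu
  obtain ⟨hK, n1, n2, n3⟩ := n.r'
  have r0 := n.r0
  have D0 := n.D0
  have v1 := n.v1
  have hw := h4.2.1
  refine ⟨hw.le, fun z w' hz hw' => ?_⟩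
  have z1 := (Complex.abs_re_le_norm z).trans hz
  have z2 := (Complex.abs_im_le_norm z).trans hz
  rw [abs_le] at z1 z2
  rw [abs_lt] at h3
  rw [mem_LoR]
  simp only [Complex.sub_re, Complex.add_re, Complex.sub_im, Complex.add_im]
  have hKD : 24400 * D ≤ K * D := by nlinarith
  refine ⟨?_, ?_, ?_, ?_⟩
  · rw [abs_lt]; constructor <;> linarith
  · linarith
  · linarith
  · linarith

/-- gluing -/
theorem glue (n : Nu c D r v K) {V : Set ℂ} {A B M e₁ e₂ ρ₂ : ℝ} {cc : ℂ}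
    (T : Bx F q Q cc V A B M)
    (Z : Sz V A B M c.re (K * D / 4) (c.im - (v + 2) * D + 20 * r) (c.im + 50 * D + 10 * r) 40
      (10 * r) e₁ e₂ ρ₂) {y : ℂ × ℂ → ℂ × ℂ}
    (H : St F q cc c.re (K * D / 4) (c.im - (v + 2) * D + 20 * r) (c.im - v * D - 20 * r) (W0 r)
      e₁ e₂ y) {f G : ℂ × ℂ → ℂ}
    (hG : ∀ y : ℂ × ℂ, y.1 ∈ V → AnalyticAt ℂ G y)
    (hfG : ∀ u ∈ S0 c.re (K * D / 4) (c.im - (v + 2) * D + 20 * r) (c.im - v * D - 20 * r) (W0 r),
      f (u.1 + u.2 / 2, u.2) = G (y u))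
    (af : AnalyticOnNhd ℂ f (LoR c D r v K))
    (hev : ∀ t w : ℂ, (t, w) ∈ LoR c D r v K → f (t, -w) = f (t, w)) :
    ∃ f' : ℂ × ℂ → ℂ, AnalyticOnNhd ℂ f' (UpR c D r v) ∧
      ∀ u ∈ LoR c D r v K ∩ UpR c D r v, f' u = f u := by
  obtain ⟨hK, n1, n2, n3⟩ := n.r'
  have r0 := n.r0
  have D0 := n.D0
  have v1 := n.v1
  have hKD : 24400 * D ≤ K * D := by nlinarith [n.K1]
  -- the even extension on the lower rectangle
  have hfe : ∀ u ∈ LoR c D r v K, u.2.im ≠ 0 → fe f u = f u := by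
    rintro ⟨t, w⟩ hu h0
    rcases lt_or_gt_of_ne h0 with h | h
    · rw [fe, if_neg (by simpa using h.le), if_pos h]
      exact hev t w hu
    · exact fe_pos f h
  obtain ⟨C1, C2⟩ := climb_line (ℓ := 50 * D + 10 * r) T Z H (sec_W0 r0)
    (by nlinarith) (by linarith) (f := fe f) (G := G) hG
    (fun u hu => by
      rw [fe_pos f (by exact hu.2.2.2.1)]
      exact hfG u hu)
    (fe_even f) (b₀ := c.im - v * D) (by linarith) (by nlinarith) (by
      intro w hw t ht1 ht2 ht3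
      have hm : (t, w) ∈ LoR c D r v K := by
        rw [mem_LoR]
        simp only [Complex.sub_re, Complex.sub_im]
        refine ⟨?_, by linarith, by linarith, hw.2.1⟩
        linarith
      have e : (fun t => fe f (t, w)) = fun t => f (t, w) := by
        funext s
        exact fe_pos f hw.1
      rw [e]
      have h1 : AnalyticAt ℂ (fun t : ℂ => (t, w)) t := analyticAt_id.prod analyticAt_const
      exact ((af _ hm).comp_of_eq h1 rfl).differentiableAt)
  set g := lh F q cc (c.im - v * D - 20 * r) y G with hg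
  -- points of `UpR` above the lower margin
  have hup : ∀ u ∈ UpR c D r v, c.im - (v + 2) * D + 30 * r < u.1.im →
      u ∈ S0 c.re (50 * D + 10 * r - 10 * r) (c.im - (v + 2) * D + 20 * r + 10 * r)
        (c.im + 50 * D + 10 * r - 10 * r) {w | w ∈ W0 r ∨ -w ∈ W0 r} := by
    rintro ⟨t, w⟩ ⟨h1, h2, h3, h4, h5⟩ h6
    simp only [Complex.sub_re, Complex.sub_im] at h1 h2 h3 h4 h5 h6
    refine ⟨by simp only; linarith, by simp only; linarith, by simp only; linarith, ?_⟩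
    rw [Set.mem_ofPred_eq, mem_W0, mem_W0, norm_neg, Complex.neg_im]
    rcases le_or_gt 0 w.im with h | h
    · rw [abs_of_nonneg h] at h5
      left
      refine ⟨?_, h4, h5⟩
      have := norm_nonneg w
      linarith
    · rw [abs_of_neg h] at h5
      right
      exact ⟨by linarith, h4, h5⟩
  have him : ∀ u ∈ UpR c D r v, u.2.im ≠ 0 := by
    rintro u ⟨-, -, -, -, h5⟩ h0
    rw [h0, abs_zero] at h5
    have := norm_nonneg u.2
    linarith
  have hlo : ∀ u ∈ UpR c D r v, c.im - (v + 2) * D + 30 * r < u.1.im → u.1.im < c.im - v * D →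
      g u = f u := by
    intro u hu h1 h2
    have h3 := hup u hu h1
    have h4 : u ∈ S0 c.re (50 * D + 10 * r - 10 * r) (c.im - (v + 2) * D + 20 * r + 10 * r)
        (c.im - v * D) {w | w ∈ W0 r ∨ -w ∈ W0 r} := ⟨h3.1, h2, h3.2.2.1, h3.2.2.2⟩
    rw [C2 h4]
    refine hfe u ?_ (him u hu)
    obtain ⟨k1, k2, k3, k4, k5⟩ := hu
    simp only [Complex.sub_re, Complex.sub_im] at k1 k2 k3
    rw [mem_LoR]
    simp only [Complex.sub_re, Complex.sub_im]
    refine ⟨by linarith, by linarith, by linarith, k4⟩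
  refine ⟨fun u => if (u.1 - c).im < -(v + 1) * D then f u else g u, ?_, ?_⟩
  · intro u hu
    have cim : Continuous fun y : ℂ × ℂ => (y.1 - c).im :=
      continuous_im.comp (continuous_fst.sub continuous_const)
    by_cases h : (u.1 - c).im < -(v + 1) * D
    · have hm : u ∈ LoR c D r v K := by
        obtain ⟨k1, k2, k3, k4, k5⟩ := hu
        rw [mem_LoR]
        refine ⟨by linarith, k2, by linarith, k4⟩
      refine (af u hm).congr ?_
      filter_upwards [cim.continuousAt.eventually_lt_const h] with y hy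
      rw [if_pos hy]
    · rw [not_lt] at h
      have h' : c.im - (v + 2) * D + 30 * r < u.1.im := by
        rw [Complex.sub_im] at h; linarith
      refine (C1 u (hup u hu h')).congr ?_
      have c2 : Continuous fun y : ℂ × ℂ => y.1.im := continuous_im.comp continuous_fst
      filter_upwards [c2.continuousAt.eventually_const_lt h', isOpen_UpR.mem_nhds hu] with y h1 h2
      by_cases h3 : (y.1 - c).im < -(v + 1) * D
      · rw [if_pos h3]
        refine hlo y h2 h1 ?_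
        rw [Complex.sub_im] at h3
        linarith
      · rw [if_neg h3]
  · rintro u ⟨hu1, hu2⟩
    by_cases h : (u.1 - c).im < -(v + 1) * D
    · simp only [if_pos h]
    · simp only [if_neg h]
      rw [not_lt, Complex.sub_im] at h
      have h3 := hu1.2.2.1
      rw [Complex.sub_im] at h3
      exact hlo u hu2 (by linarith) (by linarith)

/-- sizes -/
structure Nb (c : ℂ) (D r v K N A₀ M₀ : ℝ) : Prop where
  n : Nu c D r v K
  hN : N = K * D
  N0 : 0 < N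
  A00 : 0 ≤ A₀
  M00 : 0 ≤ M₀
  AM : A₀ = M₀ * D
  Ar : A₀ * r * K = 1 / 10000000
  Mr : M₀ * r * N = 1 / 10000000

theorem nb_mk (n : Nu c D r v K) : Nb c D r v K (K * D) (1 / 10000000 / (r * K))
    (1 / 10000000 / (r * K * D)) := by
  obtain ⟨K0, n1, n2, n3⟩ := n.r'
  have r0 := n.r0
  have D0 := n.D0
  exact ⟨n, rfl, by positivity, by positivity, by positivity, by field_simp, by field_simp,
    by field_simp⟩

variable {N A₀ M₀ : ℝ}

theorem Nb.more (b : Nb c D r v K N A₀ M₀) : 0 < K ∧ 10000000 * (K * r) ≤ D ∧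
    24400 * r * 10000000 ≤ D ∧ 400 * (v + 60) * D ≤ N ∧ 24400 ≤ K ∧ 24400 * D ≤ N ∧ 0 < r ∧
    0 < D ∧ 0 < v * D ∧ 24400 * r ≤ N := by
  obtain ⟨K0, n1, n2, n3⟩ := b.n.r'
  have r0 := b.n.r0
  have D0 := b.n.D0
  have v1 := b.n.v1
  have h1 := b.n.K1
  have h2 := b.hN
  have hK : 24400 ≤ K := by linarith
  have hKD : 24400 * D ≤ N := by rw [h2]; nlinarith
  refine ⟨K0, n1, n2, by rw [h2]; exact n3, hK, hKD, r0, D0, by positivity, ?_⟩
  linarith

theorem size_A (b : Nb c D r v K N A₀ M₀) : A₀ * (20 * r) ≤ 1 / 1000 ∧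
    2 * (A₀ * (10 * r)) < 1 / 100 := by
  obtain ⟨K0, n1, n2, n3, hK, hKD, r0, D0, vD, rN⟩ := b.more
  have A00 := b.A00
  have h1 : A₀ * r * 24400 ≤ A₀ * r * K := by gcongr
  rw [b.Ar] at h1
  constructor <;> linarith

theorem size_M (b : Nb c D r v K N A₀ M₀) : 8 * (M₀ * (20 * r) ^ 2) ≤ 1 / 1000 ∧
    4 * ((M₀ + M₀) * (10 * r) ^ 2) < 1 / 10000 := by
  obtain ⟨K0, n1, n2, n3, hK, hKD, r0, D0, vD, rN⟩ := b.more
  have M00 := b.M00
  have h1 : M₀ * r * (24400 * r) ≤ M₀ * r * N := by gcongr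
  rw [b.Mr] at h1
  have e1 : 8 * (M₀ * (20 * r) ^ 2) = 3200 / 24400 * (M₀ * r * (24400 * r)) := by ring
  have e2 : 4 * ((M₀ + M₀) * (10 * r) ^ 2) = 800 / 24400 * (M₀ * r * (24400 * r)) := by ring
  rw [e1, e2]
  constructor <;> linarith

theorem size_G (b : Nb c D r v K N A₀ M₀) :
    (1 + 40 : ℝ) * ((c.im + 50 * D + 10 * r) - (c.im - (v + 2) * D + 20 * r)) ≤ 41 / 400 * N ∧
    0 ≤ (1 + 40 : ℝ) * ((c.im + 50 * D + 10 * r) - (c.im - (v + 2) * D + 20 * r)) := by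
  obtain ⟨K0, n1, n2, n3, hK, hKD, r0, D0, vD, rN⟩ := b.more
  constructor
  · have e : (1 + 40 : ℝ) * ((c.im + 50 * D + 10 * r) - (c.im - (v + 2) * D + 20 * r)) =
        41 / 400 * (400 * (v + 60) * D) - 41 * 8 * D - 410 * r := by ring
    rw [e]
    have : 41 / 400 * (400 * (v + 60) * D) ≤ 41 / 400 * N :=
      mul_le_mul_of_nonneg_left n3 (by norm_num)
    linarith
  · have e : (c.im + 50 * D + 10 * r) - (c.im - (v + 2) * D + 20 * r) =
        v * D + 52 * D - 10 * r := by ring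
    rw [e]
    have : 0 ≤ v * D + 52 * D - 10 * r := by linarith
    linarith

theorem near_c (b : Nb c D r v K N A₀ M₀) {t x y : ℂ} (h1 : |(t - c).re| < K * D / 2)
    (h2 : -(v + 2) * D < (t - c).im) (h3 : (t - c).im < -v * D) (h4 : ‖x - t‖ ≤ D)
    (h5 : ‖y - x‖ ≤ 3 * (10 * r)) : y ∈ ball c (3 * N / 4) := by
  obtain ⟨K0, n1, n2, n3, hK, hKD, r0, D0, vD, rN⟩ := b.more
  rw [← b.hN] at h1
  rw [mem_ball_iff_norm]
  have g2 : ‖t - c‖ ≤ |(t - c).re| + |(t - c).im| := Complex.norm_le_abs_re_add_abs_im _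
  have g3 : |(t - c).im| ≤ (v + 2) * D := by
    rw [abs_le]
    constructor
    · linarith
    · linarith
  have g4 : ‖y - c‖ ≤ ‖y - x‖ + ‖x - t‖ + ‖t - c‖ := by
    have e : y - c = (y - x) + (x - t) + (t - c) := by ring
    rw [e]
    exact norm_add₃_le
  have g5 : (v + 2) * D = 1 / 400 * (400 * (v + 60) * D) - 58 * D := by ring
  linarith

theorem sz_mk (b : Nb c D r v K N A₀ M₀) :
    Sz (ball c (3 * N / 4)) A₀ M₀ M₀ c.re (K * D / 4) (c.im - (v + 2) * D + 20 * r)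
      (c.im + 50 * D + 10 * r) 40 (10 * r) D (1 / 100) (N / 16) := by
  obtain ⟨K0, n1, n2, n3, hK, hKD, r0, D0, vD, rN⟩ := b.more
  obtain ⟨hG, hG0⟩ := size_G b
  have M00 := b.M00
  have N0 := b.N0
  have hMr := b.Mr
  refine ⟨by positivity, D0.le, by norm_num, by norm_num, (size_A b).2, (size_M b).2, ?_, ?_, ?_⟩
  · generalize (1 + 40 : ℝ) * ((c.im + 50 * D + 10 * r) - (c.im - (v + 2) * D + 20 * r)) = G
      at hG hG0
    calc 12800 * (M₀ + M₀) * G * (10 * r) ≤ 12800 * (M₀ + M₀) * (41 / 400 * N) * (10 * r) := by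
          gcongr
      _ = 26240 * (M₀ * r * N) := by ring
      _ ≤ 1 := by rw [hMr]; norm_num
  · generalize (1 + 40 : ℝ) * ((c.im + 50 * D + 10 * r) - (c.im - (v + 2) * D + 20 * r)) = G
      at hG hG0
    have h3 : 25600 * (M₀ + M₀) * G ^ 2 * (10 * r) ≤
        25600 * (M₀ + M₀) * (41 / 400 * N) ^ 2 * (10 * r) := by gcongr
    have h4 : 25600 * (M₀ + M₀) * (41 / 400 * N) ^ 2 * (10 * r) =
        (25600 * 20 * (41 / 400) ^ 2) * (M₀ * r * N) * N := by ring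
    rw [h4, hMr] at h3
    norm_num at h3
    linarith
  · intro z h1 h2 h3
    rw [← b.hN] at h1
    rw [mem_ball_iff_norm]
    have h4 : ‖z - c‖ ≤ |(z - c).re| + |(z - c).im| := Complex.norm_le_abs_re_add_abs_im _
    rw [Complex.sub_re, Complex.sub_im] at h4
    have g5 : (v + 2) * D = 1 / 400 * (400 * (v + 60) * D) - 58 * D := by ring
    have h5 : |z.im - c.im| ≤ N / 8 := by
      rw [abs_le]
      constructor <;> linarith
    linarith

theorem bx_mk (hB : Bs Λ F q Q) (b : Nb c D r v K N A₀ M₀)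
    (bA : ∀ z ∈ ball c N, ‖deriv F z‖ ≤ A₀) (bM : ∀ z ∈ ball c N, ‖Q z‖ ≤ M₀) :
    Bx F q Q ((Λ : ℂ) ^ 3) (ball c (3 * N / 4)) A₀ M₀ M₀ := by
  obtain ⟨K0, n1, n2, n3, hK, hKD, r0, D0, vD, rN⟩ := b.more
  have N0 := b.N0
  have M00 := b.M00
  have hsub : ball c (3 * N / 4) ⊆ ball c N := ball_subset_ball (by linarith)
  refine ⟨Bs.cne hB, isOpen_ball, fun x _ => Bs.crv hB x, fun x _ => hB.dQ.analyticAt x,
    fun x _ => hB.gQ x, fun x hx => bA x (hsub hx), ?_, fun x hx => bM x (hsub hx)⟩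
  intro z hz
  rw [mem_ball_iff_norm] at hz
  have h := Complex.norm_deriv_le_of_forall_mem_sphere_norm_le (c := z) (R := N / 8) (C := A₀)
    (f := deriv F) (by positivity) (hB.dF.deriv.diffContOnCl) (by
      intro y hy
      rw [mem_sphere_iff_norm] at hy
      apply bA
      rw [mem_ball_iff_norm]
      have : ‖y - c‖ ≤ ‖y - z‖ + ‖z - c‖ := by
        have := norm_add_le (y - z) (z - c)
        rwa [sub_add_sub_cancel] at this
      linarith)
  refine h.trans ?_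
  rw [div_le_iff₀ (by positivity), b.AM]
  exact mul_le_mul_of_nonneg_left (by linarith) M00

theorem lw_mk (b : Nb c D r v K N A₀ M₀)
    (bA : ∀ z ∈ ball c N, ‖deriv F z‖ ≤ A₀) (bM : ∀ z ∈ ball c N, ‖Q z‖ ≤ M₀)
    {A P θ : ℂ × ℂ → ℂ} (aA : AnalyticOnNhd ℂ A (LoR c D r v K))
    (aP : AnalyticOnNhd ℂ P (LoR c D r v K)) (aθ : AnalyticOnNhd ℂ θ (LoR c D r v K))
    (hθ : ∀ t w : ℂ, (t, w) ∈ LoR c D r v K → ‖θ (t, w) - t‖ ≤ D)
    (hlaw : ∀ t w : ℂ, (t + w / 2, w) ∈ LoR c D r v K → (t - w / 2, w) ∈ LoR c D r v K →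
      ‖θ (t + w / 2, w) - θ (t - w / 2, w) - w‖ ≤ 1 / 10000000 * ‖w‖ ∧
      A (t + w / 2, w) + A (t - w / 2, w) = 2 * F (θ (t, w)) ∧
      P (t + w / 2, w) + P (t - w / 2, w) =
        2 * q (θ (t, w)) * cos ((A (t + w / 2, w) - A (t - w / 2, w)) / 2) ∧
      deriv F (θ (t, w)) * (P (t + w / 2, w) - P (t - w / 2, w)) =
        2 * deriv q (θ (t, w)) * sin ((A (t + w / 2, w) - A (t - w / 2, w)) / 2)) :
    Lw F q Q (ball c (3 * N / 4)) A₀ M₀ (1 / 10000000) r (LoR c D r v K) A P θ := by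
  have N0 := b.N0
  have r0 := b.n.r0
  have hsub : ball c (3 * N / 4) ⊆ ball c N := ball_subset_ball (by linarith)
  refine ⟨convex_ball _ _, fun x hx => bA x (hsub hx), fun x hx => bM x (hsub hx), aA, aP, aθ,
    ?_, hlaw, by norm_num, b.A00, b.M00, (size_A b).1, (size_M b).1⟩
  rintro ⟨t, w⟩ hu
  have h1 := hθ t w hu
  obtain ⟨k1, k2, k3, k4⟩ := hu
  exact near_c b k1 k2 k3 h1 (by rw [sub_self, norm_zero]; positivity)

theorem st_mk (hB : Bs Λ F q Q) (b : Nb c D r v K N A₀ M₀) {A P θ : ℂ × ℂ → ℂ}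
    (T : Bx F q Q ((Λ : ℂ) ^ 3) (ball c (3 * N / 4)) A₀ M₀ M₀)
    (hθ : ∀ t w : ℂ, (t, w) ∈ LoR c D r v K → ‖θ (t, w) - t‖ ≤ D)
    (hL : Lw F q Q (ball c (3 * N / 4)) A₀ M₀ (1 / 10000000) r (LoR c D r v K) A P θ) :
    St F q ((Λ : ℂ) ^ 3) c.re (K * D / 4) (c.im - (v + 2) * D + 20 * r)
      (c.im - v * D - 20 * r) (W0 r) D (1 / 100) (ph Λ F q A P θ) := by
  have n := b.n
  refine ⟨fun u hu => ph_an hB hL (mg_LoR n hu), ?_, fun u hu => hθ u.1 u.2 (mg_LoR n hu).z,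
    fun u hu => bound_et hB hL (mg_LoR n hu)⟩
  intro u hu hu'
  have m1 := mg_LoR n hu
  have m2 := mg_LoR n hu'
  have him : 0 < u.2.im := hu.2.2.2.1
  have h0 : u.2 ≠ 0 := by
    intro h
    rw [h] at him
    simp at him
  refine ph_rec hB hL T m1 m2 h0 ?_
  have hη := bound_et hB hL m1
  have hw : ‖u.2‖ < 10 * r := hu.2.2.2.2.1
  have hη2 : ‖et Λ F q A P θ u‖ ≤ 10 * r := by
    have h1 := norm_add_le (et Λ F q A P θ u - u.2 / 2) (u.2 / 2)
    have e2 : ‖u.2 / 2‖ = ‖u.2‖ / 2 := by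
      rw [norm_div]; norm_num
    rw [sub_add_cancel, e2] at h1
    have := norm_nonneg u.2
    linarith
  have A00 := b.A00
  have M00 := b.M00
  refine ⟨?_, ?_, ?_⟩
  · intro z hz
    have e1 : (ph Λ F q A P θ u).1 = θ u := rfl
    have e2 : (ph Λ F q A P θ u).2 = et Λ F q A P θ u := rfl
    rw [mem_closedBall_iff_norm, e1, e2] at hz
    have h1 := hθ u.1 u.2 m1.z
    obtain ⟨k1, k2, k3, k4⟩ := m1.z
    exact near_c b k1 k2 k3 h1 (hz.trans (by linarith))
  · show A₀ * ‖et Λ F q A P θ u‖ < 1 / 100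
    have h1 : A₀ * ‖et Λ F q A P θ u‖ ≤ A₀ * (10 * r) := by gcongr
    have := (size_A b).2
    have h3 : 0 ≤ A₀ * (10 * r) := (mul_nonneg A00 (norm_nonneg _)).trans h1
    linarith
  · show (M₀ + M₀) * ‖et Λ F q A P θ u‖ ^ 2 < 1 / 10000
    have h1 : (M₀ + M₀) * ‖et Λ F q A P θ u‖ ^ 2 ≤ (M₀ + M₀) * (10 * r) ^ 2 := by gcongr
    have := (size_M b).2
    have h3 : 0 ≤ (M₀ + M₀) * (10 * r) ^ 2 := by positivity
    linarith

/-- **Row C** -/
theorem rowC : RowC := by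
  refine ⟨1 / 10000000, by norm_num, ?_⟩
  intro Λ F q Q hB c D r v K hD hr hv hK hKr hbd A P θ aA aP aθ hθ hA0 hev hlaw
  have n : Nu c D r v K := ⟨hD, hr, hv, hK, hKr⟩
  have b := nb_mk n
  have K0 := n.r'.1
  have bA : ∀ z ∈ ball c (K * D), ‖deriv F z‖ ≤ 1 / 10000000 / (r * K) := by
    intro z hz
    have h := (hbd z hz).1
    rw [le_div_iff₀ (by positivity)]
    linarith
  have bM : ∀ z ∈ ball c (K * D), ‖Q z‖ ≤ 1 / 10000000 / (r * K * D) := by
    intro z hz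
    have h := (hbd z hz).2
    rw [le_div_iff₀ (by positivity)]
    linarith
  have T := bx_mk hB b bA bM
  have hL := lw_mk b bA bM aA aP aθ hθ hlaw
  have hS := st_mk hB b T hθ hL
  have Z := sz_mk b
  obtain ⟨A', a1, a2⟩ := glue n T Z hS (f := A) (G := aL F 1)
    (fun y hy => aL_an 1 (hB.dF.analyticAt _))
    (fun u hu => (ph_out hB hL (mg_LoR n hu)).1.symm) aA (fun t w h => (hev t w h).1)
  obtain ⟨P', p1, p2⟩ := glue n T Z hS (f := P) (G := qL F q 1)
    (fun y hy => qL_an 1 (hB.dF.analyticAt _) (hB.dq.analyticAt _))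
    (fun u hu => (ph_out hB hL (mg_LoR n hu)).2.symm) aP (fun t w h => (hev t w h).2.1)
  exact ⟨A', P', a1, p1, fun u hu => ⟨a2 u hu, p2 u hu⟩⟩

end

end Vale.Agent.P097.H690.LD
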