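import Vale.Agent.P097.H133.Tm4

/-! # P097 / case [d], row D4: climb and gluing

Start data `v` (phase of the vertex at time `t` on the leaf `w`) on a low rectangle, extended
upwards by `v (t, w) = SX^[n] (v (t - n w, w))`, for labels `w` in a sector `|Re w| ≤ κ Im w`. -/

set_option linter.all false

open Complex Metric Filter Topology Set

namespace Vale.Agent.P097.H690.LD

open Vale.Agent.P097 Vale.Agent.P097.SC Vale.Agent.P097.H133.Tm

/-- rectangle `|Re t - X| < ℓ`, `a < Im t < b`, label in `W` -/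
def S0 (X ℓ a b : ℝ) (W : Set ℂ) : Set (ℂ × ℂ) :=
  {u | a < u.1.im ∧ u.1.im < b ∧ |u.1.re - X| < ℓ ∧ u.2 ∈ W}

/-- an open set of labels in the sector `|Re w| ≤ κ Im w`, `‖w‖ ≤ r` -/
structure Sec (W : Set ℂ) (κ r : ℝ) : Prop where
  op : IsOpen W
  κ0 : 0 ≤ κ
  r0 : 0 ≤ r
  im : ∀ w ∈ W, 0 < w.im
  re : ∀ w ∈ W, |w.re| ≤ κ * w.im
  nm : ∀ w ∈ W, ‖w‖ ≤ r

/-- start data -/
structure St (Φ q : ℂ → ℂ) (c : ℂ) (X ℓ a b : ℝ) (W : Set ℂ) (e₁ e₂ : ℝ)
    (v : ℂ × ℂ → ℂ × ℂ) : Prop where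
  an : AnalyticOnNhd ℂ v (S0 X ℓ a b W)
  recu : ∀ u ∈ S0 X ℓ a b W, (u.1 + u.2, u.2) ∈ S0 X ℓ a b W →
    v (u.1 + u.2, u.2) = SX Φ q c (v u)
  c1 : ∀ u ∈ S0 X ℓ a b W, ‖(v u).1 - u.1‖ ≤ e₁
  c2 : ∀ u ∈ S0 X ℓ a b W, ‖(v u).2 - u.2 / 2‖ ≤ e₂ * ‖u.2‖

theorem isOpen_S0 {X ℓ a b : ℝ} {W : Set ℂ} (hW : IsOpen W) : IsOpen (S0 X ℓ a b W) := by
  have h1 : IsOpen {u : ℂ × ℂ | a < u.1.im} :=
    isOpen_lt continuous_const (continuous_im.comp continuous_fst)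
  have h2 : IsOpen {u : ℂ × ℂ | u.1.im < b} :=
    isOpen_lt (continuous_im.comp continuous_fst) continuous_const
  have h3 : IsOpen {u : ℂ × ℂ | |u.1.re - X| < ℓ} :=
    isOpen_lt (((continuous_re.comp continuous_fst).sub continuous_const).abs) continuous_const
  have h4 : IsOpen {u : ℂ × ℂ | u.2 ∈ W} := hW.preimage continuous_snd
  exact (h1.inter (h2.inter (h3.inter h4)))

/-- number of steps down -/
noncomputable def nst (a₁ : ℝ) (u : ℂ × ℂ) : ℕ := sInf {n : ℕ | u.1.im - n * u.2.im < a₁}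

/-- the continued phase -/
noncomputable def vh (Φ q : ℂ → ℂ) (c : ℂ) (a₁ : ℝ) (v : ℂ × ℂ → ℂ × ℂ) (u : ℂ × ℂ) : ℂ × ℂ :=
  (SX Φ q c)^[nst a₁ u] (v (u.1 - nst a₁ u * u.2, u.2))

section

variable {Φ q Q : ℂ → ℂ} {c : ℂ} {V W : Set ℂ} {A B M X ℓ ℓ₀ a a₁ b κ r e₁ e₂ ρ₂ : ℝ}
  {v : ℂ × ℂ → ℂ × ℂ}

theorem nst_spec {u : ℂ × ℂ} (hw : 0 < u.2.im) : u.1.im - nst a₁ u * u.2.im < a₁ := by
  have hne : {n : ℕ | u.1.im - n * u.2.im < a₁}.Nonempty := by
    obtain ⟨n, hn⟩ := exists_nat_gt ((u.1.im - a₁) / u.2.im)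
    refine ⟨n, ?_⟩
    rw [div_lt_iff₀ hw] at hn
    show u.1.im - n * u.2.im < a₁
    linarith
  exact Nat.sInf_mem hne

theorem nst_low {u : ℂ × ℂ} (hw : 0 < u.2.im) (h1 : u.2.im < a₁ - a) (h2 : a < u.1.im) :
    a < u.1.im - nst a₁ u * u.2.im := by
  rcases Nat.eq_zero_or_pos (nst a₁ u) with h0 | h0
  · rw [h0]; simpa using h2
  · have h3 : nst a₁ u - 1 < nst a₁ u := by omega
    have h4 := Nat.notMem_of_lt_sInf h3
    have h5 : ¬ (u.1.im - ((nst a₁ u - 1 : ℕ) : ℝ) * u.2.im < a₁) := h4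
    rw [not_lt] at h5
    have h6 : ((nst a₁ u - 1 : ℕ) : ℝ) = (nst a₁ u : ℝ) - 1 := by
      rw [Nat.cast_sub h0]; simp
    rw [h6] at h5
    nlinarith

theorem nst_le {u : ℂ × ℂ} {m : ℕ} (h : u.1.im - m * u.2.im < a₁) : nst a₁ u ≤ m :=
  Nat.sInf_le h

theorem down_im (u : ℂ × ℂ) (k : ℕ) : (u.1 - k * u.2).im = u.1.im - k * u.2.im := by
  simp

theorem down_re (u : ℂ × ℂ) (k : ℕ) : (u.1 - k * u.2).re = u.1.re - k * u.2.re := by
  simp

/-- the points `t - k w` stay over the wide rectangle -/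
theorem down_mem (hS : Sec W κ r) (hℓ : ℓ + κ * (b - a) ≤ ℓ₀) {u : ℂ × ℂ}
    (hu : u ∈ S0 X ℓ a b W) {k : ℕ} (hk : a < u.1.im - k * u.2.im) :
    |(u.1 - k * u.2).re - X| < ℓ₀ ∧ a < (u.1 - k * u.2).im ∧ (u.1 - k * u.2).im < b ∧
      k * ‖u.2‖ ≤ (1 + κ) * (b - a) := by
  obtain ⟨h1, h2, h3, h4⟩ := hu
  have i0 := hS.im _ h4
  have r0 := hS.re _ h4
  have κ0 := hS.κ0
  have hk0 : (0 : ℝ) ≤ k := Nat.cast_nonneg k
  have hki : k * u.2.im ≤ b - a := by linarith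
  have hki0 : 0 ≤ k * u.2.im := by positivity
  have hkr : |k * u.2.re| ≤ κ * (b - a) := by
    rw [abs_mul, abs_of_nonneg hk0]
    calc (k : ℝ) * |u.2.re| ≤ k * (κ * u.2.im) := by gcongr
      _ = κ * (k * u.2.im) := by ring
      _ ≤ κ * (b - a) := by gcongr
  refine ⟨?_, ?_, ?_, ?_⟩
  · rw [down_re]
    have e : u.1.re - k * u.2.re - X = (u.1.re - X) - k * u.2.re := by ring
    rw [e]
    have := abs_sub (u.1.re - X) (k * u.2.re)
    linarith
  · rw [down_im]; exact hk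
  · rw [down_im]; linarith
  · have h5 : ‖u.2‖ ≤ |u.2.re| + |u.2.im| := Complex.norm_le_abs_re_add_abs_im _
    rw [abs_of_pos i0] at h5
    calc (k : ℝ) * ‖u.2‖ ≤ k * ((1 + κ) * u.2.im) := by gcongr; linarith
      _ = (1 + κ) * (k * u.2.im) := by ring
      _ ≤ (1 + κ) * (b - a) := by gcongr

theorem down_mem' (hS : Sec W κ r) (hℓ : ℓ + κ * (b - a) ≤ ℓ₀) {u : ℂ × ℂ}
    (hu : u ∈ S0 X ℓ a b W) {k : ℕ} (hk : a < u.1.im - k * u.2.im)
    (hk' : u.1.im - k * u.2.im < a₁) : (u.1 - k * u.2, u.2) ∈ S0 X ℓ₀ a a₁ W := by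
  obtain ⟨h1, h2, h3, h4⟩ := down_mem hS hℓ hu hk
  refine ⟨h2, ?_, h1, hu.2.2.2⟩
  show (u.1 - k * u.2).im < a₁
  rw [down_im]; exact hk'

theorem step_eq (H : St Φ q c X ℓ₀ a a₁ W e₁ e₂ v) (hS : Sec W κ r)
    (hℓ : ℓ + κ * (b - a) ≤ ℓ₀) {u : ℂ × ℂ} (hu : u ∈ S0 X ℓ a b W) {k : ℕ}
    (hk : a < u.1.im - (k + 1 : ℕ) * u.2.im) (hk' : u.1.im - k * u.2.im < a₁) :
    v (u.1 - k * u.2, u.2) = SX Φ q c (v (u.1 - (k + 1 : ℕ) * u.2, u.2)) := by
  have i0 := hS.im _ hu.2.2.2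
  have hk1 : a < u.1.im - k * u.2.im := by push_cast at hk; linarith
  have hk2 : u.1.im - (k + 1 : ℕ) * u.2.im < a₁ := by push_cast; linarith
  have m1 := down_mem' hS hℓ hu hk hk2
  have m0 := down_mem' hS hℓ hu hk1 hk'
  have e : u.1 - k * u.2 = (u.1 - (k + 1 : ℕ) * u.2) + u.2 := by push_cast; ring
  have h := H.recu _ m1
  simp only at h
  rw [← e] at h
  exact h m0

/-- independence of the number of steps -/
theorem indep (H : St Φ q c X ℓ₀ a a₁ W e₁ e₂ v) (hS : Sec W κ r)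
    (hℓ : ℓ + κ * (b - a) ≤ ℓ₀) {u : ℂ × ℂ} (hu : u ∈ S0 X ℓ a b W) {m : ℕ}
    (hm : a < u.1.im - m * u.2.im) (hm' : u.1.im - m * u.2.im < a₁) :
    (SX Φ q c)^[m] (v (u.1 - m * u.2, u.2)) = vh Φ q c a₁ v u := by
  have i0 := hS.im _ hu.2.2.2
  have key : ∀ d : ℕ, a < u.1.im - (nst a₁ u + d : ℕ) * u.2.im →
      (SX Φ q c)^[nst a₁ u + d] (v (u.1 - (nst a₁ u + d : ℕ) * u.2, u.2)) = vh Φ q c a₁ v u := by
    intro d
    induction d with
    | zero => intro _; rfl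
    | succ d ih =>
      intro hd
      have hd1 : a < u.1.im - (nst a₁ u + d : ℕ) * u.2.im := by
        push_cast at hd ⊢; linarith
      have hd2 : u.1.im - (nst a₁ u + d : ℕ) * u.2.im < a₁ := by
        have h1 := nst_spec (a₁ := a₁) i0
        have h2 : (0 : ℝ) ≤ (d : ℝ) * u.2.im := by positivity
        push_cast; linarith
      have h3 := step_eq H hS hℓ hu (k := nst a₁ u + d) hd hd2
      rw [← ih hd1, h3, ← Function.iterate_succ_apply]
      rfl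
  obtain ⟨d, rfl⟩ := Nat.exists_eq_add_of_le (nst_le (a₁ := a₁) hm')
  exact key d hm

/-- hypotheses on the sizes -/
structure Sz (V : Set ℂ) (A B M X ℓ₀ a b κ r e₁ e₂ ρ₂ : ℝ) : Prop where
  BM : 0 ≤ B + M
  e10 : 0 ≤ e₁
  e20 : 0 ≤ e₂
  e2 : e₂ ≤ 1 / 2
  hA : 2 * (A * r) < 1 / 100
  hE : 4 * ((B + M) * r ^ 2) < 1 / 10000
  h1 : 12800 * (B + M) * ((1 + κ) * (b - a)) * r ≤ 1
  h2 : e₁ + 2 * e₂ * ((1 + κ) * (b - a)) + 25600 * (B + M) * ((1 + κ) * (b - a)) ^ 2 * r + 6 * r ≤ ρ₂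
  hV : ∀ z : ℂ, |z.re - X| ≤ ℓ₀ + ρ₂ → a - ρ₂ ≤ z.im → z.im ≤ b + ρ₂ → z ∈ V

/-- the orbit of one start point -/
theorem orbit (T : Bx Φ q Q c V A B M) (Z : Sz V A B M X ℓ₀ a b κ r e₁ e₂ ρ₂)
    (H : St Φ q c X ℓ₀ a a₁ W e₁ e₂ v) (hS : Sec W κ r)
    (hℓ : ℓ + κ * (b - a) ≤ ℓ₀) {u : ℂ × ℂ} (hu : u ∈ S0 X ℓ a b W) {m : ℕ}
    (hm : a < u.1.im - m * u.2.im) (hm' : u.1.im - m * u.2.im < a₁) :
    Ad V A B M ((SX Φ q c)^[m] (v (u.1 - m * u.2, u.2))) ∧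
      AnalyticAt ℂ ((SX Φ q c)^[m]) (v (u.1 - m * u.2, u.2)) ∧
      ‖((SX Φ q c)^[m] (v (u.1 - m * u.2, u.2))).1 - u.1‖ ≤
        e₁ + 2 * e₂ * ((1 + κ) * (b - a)) + 25600 * (B + M) * ((1 + κ) * (b - a)) ^ 2 * ‖u.2‖ ∧
      ‖((SX Φ q c)^[m] (v (u.1 - m * u.2, u.2))).2 - u.2 / 2‖ ≤
        (e₂ + 12800 * (B + M) * ((1 + κ) * (b - a)) * ‖u.2‖) * ‖u.2‖ := by
  have hW := hu.2.2.2
  have i0 := hS.im _ hW
  have κ0 := hS.κ0
  have hm0 := down_mem' hS hℓ hu hm hm'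
  have hnr := hS.nm _ hW
  have c1 := H.c1 _ hm0
  have c2 := H.c2 _ hm0
  simp only at c1 c2
  obtain ⟨-, -, -, hmw⟩ := down_mem hS hℓ hu hm
  set G : ℝ := (1 + κ) * (b - a) with hG
  have hab : 0 < b - a := by
    have := hu.1; have := hu.2.1; linarith
  have hG0 : 0 ≤ G := by positivity
  set y := v (u.1 - m * u.2, u.2) with hy
  have hyη : (y.1, y.2) = y := rfl
  have e10 := Z.e10
  have e20 := Z.e20
  have e2 := Z.e2
  have hw0 := norm_nonneg u.2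
  have hη : ‖y.2‖ ≤ ‖u.2‖ := by
    have h1 : ‖y.2‖ ≤ ‖y.2 - u.2 / 2‖ + ‖u.2 / 2‖ := by
      simpa using norm_add_le (y.2 - u.2 / 2) (u.2 / 2)
    have h2 : ‖u.2 / 2‖ = ‖u.2‖ / 2 := by simp
    rw [h2] at h1
    nlinarith
  have hη0 := norm_nonneg y.2
  have hmm0 : (0 : ℝ) ≤ m := Nat.cast_nonneg m
  have hr0 := hS.r0
  -- the points of the straight orbit
  have hpt : ∀ k : ℕ, k ≤ m → ∀ z : ℂ, ‖z - (y.1 + 2 * k * y.2)‖ ≤
      25600 * (B + M) * G ^ 2 * r + 6 * r → z ∈ V := by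
    intro k hk z hz
    have hkm : (k : ℝ) ≤ m := by exact_mod_cast hk
    have hsub : ((m - k : ℕ) : ℝ) = m - k := by rw [Nat.cast_sub hk]
    have hlow : a < u.1.im - (m - k : ℕ) * u.2.im := by
      rw [hsub]
      have : (0 : ℝ) ≤ (k : ℝ) * u.2.im := by positivity
      linarith
    obtain ⟨g1, g2, g3, -⟩ := down_mem hS hℓ hu hlow
    have hdiff : ‖(y.1 + 2 * k * y.2) - (u.1 - (m - k : ℕ) * u.2)‖ ≤ e₁ + 2 * e₂ * G := by
      have e : (y.1 + 2 * k * y.2) - (u.1 - (m - k : ℕ) * u.2) =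
          (y.1 - (u.1 - m * u.2)) + 2 * k * (y.2 - u.2 / 2) := by
        have : ((m - k : ℕ) : ℂ) = m - k := by rw [Nat.cast_sub hk]
        rw [this]; ring
      rw [e]
      refine (norm_add_le _ _).trans ?_
      have h3 : ‖2 * (k : ℂ) * (y.2 - u.2 / 2)‖ = 2 * k * ‖y.2 - u.2 / 2‖ := by
        rw [norm_mul, norm_mul]; simp
      rw [h3]
      have h4 : 2 * (k : ℝ) * ‖y.2 - u.2 / 2‖ ≤ 2 * e₂ * G := by
        calc 2 * (k : ℝ) * ‖y.2 - u.2 / 2‖ ≤ 2 * m * (e₂ * ‖u.2‖) := by gcongr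
          _ = 2 * e₂ * (m * ‖u.2‖) := by ring
          _ ≤ 2 * e₂ * G := by gcongr
      linarith
    have htot : ‖z - (u.1 - (m - k : ℕ) * u.2)‖ ≤ ρ₂ := by
      have h5 := norm_add_le (z - (y.1 + 2 * k * y.2)) ((y.1 + 2 * k * y.2) - (u.1 - (m - k : ℕ) * u.2))
      rw [sub_add_sub_cancel] at h5
      have := Z.h2
      rw [← hG] at this
      linarith
    have t1 := (Complex.abs_re_le_norm (z - (u.1 - (m - k : ℕ) * u.2))).trans htot
    have t2 := (Complex.abs_im_le_norm (z - (u.1 - (m - k : ℕ) * u.2))).trans htot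
    rw [Complex.sub_re] at t1
    rw [Complex.sub_im] at t2
    rw [abs_le] at t1 t2
    rw [abs_lt] at g1
    refine Z.hV z ?_ ?_ ?_
    · rw [abs_le]; constructor <;> linarith
    · linarith
    · linarith
  have hθ : y.1 ∈ V := by
    refine hpt 0 (Nat.zero_le _) _ ?_
    simp only [Nat.cast_zero, mul_zero, zero_mul, add_zero, sub_self, norm_zero]
    have := Z.BM
    positivity
  have hB0 := T.B0 hθ
  have hM0 := T.M0 hθ
  have hA0 := T.A0 hθ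
  have it := iter T (θ := y.1) (η := y.2) (n := m) (ρ := 25600 * (B + M) * G ^ 2 * r + 6 * r) hθ
    (fun k hk z hz => hpt k hk z (by rwa [mem_closedBall, dist_eq_norm] at hz))
    (by
      have : A * ‖y.2‖ ≤ A * r := by gcongr; linarith
      linarith [Z.hA])
    (by
      have : (B + M) * ‖y.2‖ ^ 2 ≤ (B + M) * r ^ 2 := by gcongr; linarith
      linarith [Z.hE])
    (by
      have h9 := Z.h1
      rw [← hG] at h9
      calc 12800 * (B + M) * m * ‖y.2‖ ^ 2 ≤ 12800 * (B + M) * m * (‖u.2‖ * r) := by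
            have : ‖y.2‖ ^ 2 ≤ ‖u.2‖ * r := by nlinarith
            gcongr
        _ = 12800 * (B + M) * (m * ‖u.2‖) * r := by ring
        _ ≤ 12800 * (B + M) * G * r := by gcongr
        _ ≤ 1 := h9)
    (by
      have h10 : (m : ℝ) ^ 2 * ‖y.2‖ ^ 3 ≤ G ^ 2 * r := by
        calc (m : ℝ) ^ 2 * ‖y.2‖ ^ 3 ≤ (m : ℝ) ^ 2 * (‖u.2‖ ^ 2 * r) := by
              have : ‖y.2‖ ^ 3 ≤ ‖u.2‖ ^ 2 * r := by
                calc ‖y.2‖ ^ 3 = ‖y.2‖ ^ 2 * ‖y.2‖ := by ring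
                  _ ≤ ‖u.2‖ ^ 2 * r := by gcongr; linarith
              gcongr
          _ = (m * ‖u.2‖) ^ 2 * r := by ring
          _ ≤ G ^ 2 * r := by gcongr
      have h11 : 25600 * (B + M) * m ^ 2 * ‖y.2‖ ^ 3 ≤ 25600 * (B + M) * G ^ 2 * r := by
        calc 25600 * (B + M) * m ^ 2 * ‖y.2‖ ^ 3 = 25600 * (B + M) * (m ^ 2 * ‖y.2‖ ^ 3) := by ring
          _ ≤ 25600 * (B + M) * (G ^ 2 * r) := by gcongr
          _ = _ := by ring
      linarith)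
    m le_rfl
  rw [hyη] at it
  obtain ⟨i1, i2, i3, i4⟩ := it
  refine ⟨i1, i2, ?_, ?_⟩
  · have e : ((SX Φ q c)^[m] y).1 - u.1 = (((SX Φ q c)^[m] y).1 - (y.1 + 2 * m * y.2)) +
        (y.1 - (u.1 - m * u.2)) + 2 * m * (y.2 - u.2 / 2) := by ring
    rw [e]
    refine (norm_add₃_le).trans ?_
    have h3 : ‖2 * (m : ℂ) * (y.2 - u.2 / 2)‖ = 2 * m * ‖y.2 - u.2 / 2‖ := by
      rw [norm_mul, norm_mul]; simp
    rw [h3]
    have h4 : 2 * (m : ℝ) * ‖y.2 - u.2 / 2‖ ≤ 2 * e₂ * G := by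
      calc 2 * (m : ℝ) * ‖y.2 - u.2 / 2‖ ≤ 2 * m * (e₂ * ‖u.2‖) := by gcongr
        _ = 2 * e₂ * (m * ‖u.2‖) := by ring
        _ ≤ 2 * e₂ * G := by gcongr
    have h5 : 25600 * (B + M) * m ^ 2 * ‖y.2‖ ^ 3 ≤ 25600 * (B + M) * G ^ 2 * ‖u.2‖ := by
      calc 25600 * (B + M) * m ^ 2 * ‖y.2‖ ^ 3 ≤ 25600 * (B + M) * m ^ 2 * ‖u.2‖ ^ 3 := by gcongr
        _ = 25600 * (B + M) * (m * ‖u.2‖) ^ 2 * ‖u.2‖ := by ring
        _ ≤ 25600 * (B + M) * G ^ 2 * ‖u.2‖ := by gcongr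
    linarith
  · have e : ((SX Φ q c)^[m] y).2 - u.2 / 2 = (((SX Φ q c)^[m] y).2 - y.2) + (y.2 - u.2 / 2) := by
      ring
    rw [e]
    refine (norm_add_le _ _).trans ?_
    have h5 : 12800 * (B + M) * m * ‖y.2‖ ^ 3 ≤ 12800 * (B + M) * G * ‖u.2‖ * ‖u.2‖ := by
      calc 12800 * (B + M) * m * ‖y.2‖ ^ 3 ≤ 12800 * (B + M) * m * ‖u.2‖ ^ 3 := by gcongr
        _ = 12800 * (B + M) * (m * ‖u.2‖) * ‖u.2‖ * ‖u.2‖ := by ring
        _ ≤ 12800 * (B + M) * G * ‖u.2‖ * ‖u.2‖ := by gcongr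
    nlinarith

/-- **the climb** (row D4, phases) -/
theorem climb (T : Bx Φ q Q c V A B M) (Z : Sz V A B M X ℓ₀ a b κ r e₁ e₂ ρ₂)
    (H : St Φ q c X ℓ₀ a a₁ W e₁ e₂ v) (hS : Sec W κ r)
    (hℓ : ℓ + κ * (b - a) ≤ ℓ₀) (hr : r < a₁ - a) :
    AnalyticOnNhd ℂ (vh Φ q c a₁ v) (S0 X ℓ a b W) ∧
    (∀ u ∈ S0 X ℓ a b W, u.1.im < a₁ → vh Φ q c a₁ v u = v u) ∧
    (∀ u ∈ S0 X ℓ a b W, (u.1 + u.2, u.2) ∈ S0 X ℓ a b W →
      vh Φ q c a₁ v (u.1 + u.2, u.2) = SX Φ q c (vh Φ q c a₁ v u)) ∧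
    (∀ u ∈ S0 X ℓ a b W, Ad V A B M (vh Φ q c a₁ v u)) ∧
    (∀ u ∈ S0 X ℓ a b W, ‖(vh Φ q c a₁ v u).1 - u.1‖ ≤
        e₁ + 2 * e₂ * ((1 + κ) * (b - a)) + 25600 * (B + M) * ((1 + κ) * (b - a)) ^ 2 * ‖u.2‖ ∧
      ‖(vh Φ q c a₁ v u).2 - u.2 / 2‖ ≤
        (e₂ + 12800 * (B + M) * ((1 + κ) * (b - a)) * ‖u.2‖) * ‖u.2‖) := by
  have him : ∀ u ∈ S0 X ℓ a b W, u.2.im < a₁ - a := fun u hu =>
    ((le_abs_self _).trans (Complex.abs_im_le_norm _)).trans_lt ((hS.nm _ hu.2.2.2).trans_lt hr)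
  have hlow : ∀ u ∈ S0 X ℓ a b W, a < u.1.im - nst a₁ u * u.2.im := fun u hu =>
    nst_low (hS.im _ hu.2.2.2) (him u hu) hu.1
  have hup : ∀ u ∈ S0 X ℓ a b W, u.1.im - nst a₁ u * u.2.im < a₁ := fun u hu =>
    nst_spec (hS.im _ hu.2.2.2)
  refine ⟨?_, ?_, ?_, ?_, ?_⟩
  · intro u hu
    set n := nst a₁ u with hn
    have hev : vh Φ q c a₁ v =ᶠ[𝓝 u] fun y => (SX Φ q c)^[n] (v (y.1 - n * y.2, y.2)) := by
      have c1 : Continuous fun y : ℂ × ℂ => y.1.im - n * y.2.im := by fun_prop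
      have h1 : ∀ᶠ y in 𝓝 u, a < y.1.im - n * y.2.im :=
        c1.continuousAt.eventually_const_lt (hlow u hu)
      have h2 : ∀ᶠ y in 𝓝 u, y.1.im - n * y.2.im < a₁ :=
        c1.continuousAt.eventually_lt_const (hup u hu)
      filter_upwards [h1, h2, (isOpen_S0 hS.op).mem_nhds hu] with y g1 g2 g3
      exact (indep H hS hℓ g3 g1 g2).symm
    refine AnalyticAt.congr ?_ hev.symm
    have hm0 := down_mem' hS hℓ hu (hlow u hu) (hup u hu)
    obtain ⟨-, o2, -, -⟩ := orbit T Z H hS hℓ hu (hlow u hu) (hup u hu)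
    have g1 : AnalyticAt ℂ (fun y : ℂ × ℂ => (y.1 - n * y.2, y.2)) u :=
      (analyticAt_fst.sub (analyticAt_const.mul analyticAt_snd)).prod analyticAt_snd
    have g2 : AnalyticAt ℂ (fun y : ℂ × ℂ => v (y.1 - n * y.2, y.2)) u :=
      (H.an _ hm0).comp_of_eq g1 rfl
    exact o2.comp_of_eq g2 rfl
  · intro u hu h1
    have h0 : nst a₁ u = 0 := Nat.le_zero.1 (nst_le (by simpa using h1))
    rw [vh, h0]
    simp
  · intro u hu hu'
    have i0 := hS.im _ hu.2.2.2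
    have h1 := hlow u hu
    have h2 := hup u hu
    have e : (u.1 + u.2).im - ((nst a₁ u + 1 : ℕ) : ℝ) * u.2.im =
        u.1.im - nst a₁ u * u.2.im := by
      rw [Complex.add_im]; push_cast; ring
    have h3 := indep H hS hℓ hu' (m := nst a₁ u + 1) (by show a < (u.1 + u.2).im - _; rw [e]; exact h1)
      (by show (u.1 + u.2).im - _ < a₁; rw [e]; exact h2)
    rw [← h3]
    have e2 : (u.1 + u.2) - ((nst a₁ u + 1 : ℕ) : ℂ) * u.2 = u.1 - nst a₁ u * u.2 := by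
      push_cast; ring
    show (SX Φ q c)^[nst a₁ u + 1] (v ((u.1 + u.2) - ((nst a₁ u + 1 : ℕ) : ℂ) * u.2, u.2)) = _
    rw [e2, Function.iterate_succ_apply']
    rfl
  · intro u hu
    exact (orbit T Z H hS hℓ hu (hlow u hu) (hup u hu)).1
  · intro u hu
    exact (orbit T Z H hS hℓ hu (hlow u hu) (hup u hu)).2.2

/-- a line coordinate `G (phase)`, continued along the climb, for labels in `W` and `-W` -/
noncomputable def lh (Φ q : ℂ → ℂ) (c : ℂ) (a₁ : ℝ) (v : ℂ × ℂ → ℂ × ℂ) (G : ℂ × ℂ → ℂ)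
    (u : ℂ × ℂ) : ℂ :=
  if 0 < u.2.im then G (vh Φ q c a₁ v (u.1 - u.2 / 2, u.2))
  else G (vh Φ q c a₁ v (u.1 + u.2 / 2, -u.2))

theorem half_mem (hS : Sec W κ r) {t w : ℂ} (ht : a + r < t.im) (ht' : t.im < b - r)
    (hr : |t.re - X| < ℓ - r) (hw : w ∈ W) : (t - w / 2, w) ∈ S0 X ℓ a b W := by
  have h1 := hS.nm _ hw
  have h2 := hS.im _ hw
  have h3 := (Complex.abs_re_le_norm w).trans h1
  have h4 := (Complex.abs_im_le_norm w).trans h1
  have h5 := hS.r0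
  rw [abs_le] at h3 h4
  rw [abs_lt] at hr
  have e1 : (t - w / 2).im = t.im - w.im / 2 := by
    rw [Complex.sub_im]; congr 1; simp
  have e2 : (t - w / 2).re = t.re - w.re / 2 := by
    rw [Complex.sub_re]; congr 1; simp
  refine ⟨?_, ?_, ?_, hw⟩
  · show a < (t - w / 2).im
    rw [e1]; linarith
  · show (t - w / 2).im < b
    rw [e1]; linarith
  · show |(t - w / 2).re - X| < ℓ
    rw [e2, abs_lt]; constructor <;> linarith

/-- **the climb** (row D4, lines): a line coordinate `f` (angle or support number) is continued to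
the big rectangle, for the labels in `W ∪ -W` -/
theorem climb_line (T : Bx Φ q Q c V A B M) (Z : Sz V A B M X ℓ₀ a b κ r e₁ e₂ ρ₂)
    (H : St Φ q c X ℓ₀ a a₁ W e₁ e₂ v) (hS : Sec W κ r)
    (hℓ : ℓ + κ * (b - a) ≤ ℓ₀) (hr : r < a₁ - a) {f G : ℂ × ℂ → ℂ}
    (hG : ∀ y : ℂ × ℂ, y.1 ∈ V → AnalyticAt ℂ G y)
    (hfG : ∀ u ∈ S0 X ℓ₀ a a₁ W, f (u.1 + u.2 / 2, u.2) = G (v u))
    (hev : ∀ u : ℂ × ℂ, f (u.1, -u.2) = f u) {b₀ : ℝ} (hb₀ : a + r < b₀) (hb : b₀ ≤ b - r)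
    (hf : ∀ w ∈ W, ∀ t : ℂ, a + r < t.im → t.im < b₀ → |t.re - X| < ℓ - r →
      DifferentiableAt ℂ (fun t => f (t, w)) t) :
    AnalyticOnNhd ℂ (lh Φ q c a₁ v G) (S0 X (ℓ - r) (a + r) (b - r) {w | w ∈ W ∨ -w ∈ W}) ∧
    EqOn (lh Φ q c a₁ v G) f (S0 X (ℓ - r) (a + r) b₀ {w | w ∈ W ∨ -w ∈ W}) := by
  obtain ⟨C1, C2, -, C4, -⟩ := climb T Z H hS hℓ hr
  have r0 := hS.r0
  have hGv : ∀ u ∈ S0 X ℓ a b W, AnalyticAt ℂ (fun y => G (vh Φ q c a₁ v y)) u := fun u hu =>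
    (hG _ (C4 u hu).mem1).comp_of_eq (C1 u hu) rfl
  have hκ := hS.κ0
  constructor
  · rintro ⟨t, w⟩ ⟨h1, h2, h3, h4⟩
    simp only at h1 h2 h3 h4
    rcases h4 with hw | hw
    · have i0 := hS.im _ hw
      have hm := half_mem hS h1 h2 h3 hw
      have hev1 : lh Φ q c a₁ v G =ᶠ[𝓝 (t, w)]
          fun y => G (vh Φ q c a₁ v (y.1 - y.2 / 2, y.2)) := by
        have c1 : Continuous fun y : ℂ × ℂ => y.2.im := by fun_prop
        filter_upwards [c1.continuousAt.eventually_const_lt i0] with y hy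
        rw [lh, if_pos hy]
      refine AnalyticAt.congr ?_ hev1.symm
      have g1 : AnalyticAt ℂ (fun y : ℂ × ℂ => (y.1 - y.2 / 2, y.2)) (t, w) :=
        (analyticAt_fst.sub (analyticAt_snd.div_const)).prod analyticAt_snd
      exact (hGv _ hm).comp_of_eq g1 rfl
    · have i0 := hS.im _ hw
      have i1 : w.im < 0 := by rw [Complex.neg_im] at i0; linarith
      have hm := half_mem hS h1 h2 h3 hw
      have hev1 : lh Φ q c a₁ v G =ᶠ[𝓝 (t, w)]
          fun y => G (vh Φ q c a₁ v (y.1 + y.2 / 2, -y.2)) := by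
        have c1 : Continuous fun y : ℂ × ℂ => y.2.im := by fun_prop
        filter_upwards [c1.continuousAt.eventually_lt_const i1] with y hy
        rw [lh, if_neg (not_lt.2 hy.le)]
      refine AnalyticAt.congr ?_ hev1.symm
      have g1 : AnalyticAt ℂ (fun y : ℂ × ℂ => (y.1 + y.2 / 2, -y.2)) (t, w) :=
        (analyticAt_fst.add (analyticAt_snd.div_const)).prod analyticAt_snd.neg
      have e : (t - -w / 2, -w) = (t + w / 2, -w) := by
        congr 1; ring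
      rw [e] at hm
      exact (hGv _ hm).comp_of_eq g1 rfl
  · -- agreement, by the identity theorem in `t`
    have key : ∀ w ∈ W, ∀ t : ℂ, a + r < t.im → t.im < b₀ → |t.re - X| < ℓ - r →
        G (vh Φ q c a₁ v (t - w / 2, w)) = f (t, w) := by
      intro w hw t ht1 ht2 ht3
      set U : Set ℂ := {t : ℂ | a + r < t.im ∧ t.im < b₀ ∧ |t.re - X| < ℓ - r} with hU
      have hUo : IsOpen U := by
        have h1 : IsOpen {u : ℂ | a + r < u.im} := isOpen_lt continuous_const continuous_im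
        have h2 : IsOpen {u : ℂ | u.im < b₀} := isOpen_lt continuous_im continuous_const
        have h3 : IsOpen {u : ℂ | |u.re - X| < ℓ - r} :=
          isOpen_lt ((continuous_re.sub continuous_const).abs) continuous_const
        exact h1.inter (h2.inter h3)
      have hUc : Convex ℝ U := by
        intro x hx y hy α β hα hβ hαβ
        obtain ⟨x1, x2, x3⟩ := hx
        obtain ⟨y1, y2, y3⟩ := hy
        rw [abs_lt] at x3 y3
        have hβ' : β = 1 - α := by linarith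
        subst hβ'
        have q1 : (α • x + (1 - α) • y).im = α * x.im + (1 - α) * y.im := by simp
        have q2 : (α • x + (1 - α) • y).re = α * x.re + (1 - α) * y.re := by simp
        refine ⟨?_, ?_, ?_⟩
        · rw [q1]
          rcases eq_or_lt_of_le hα with h | h
          · rw [← h]; linarith
          · nlinarith
        · rw [q1]
          rcases eq_or_lt_of_le hα with h | h
          · rw [← h]; linarith
          · nlinarith
        · rw [q2, abs_lt]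
          rcases eq_or_lt_of_le hα with h | h
          · rw [← h]; constructor <;> linarith
          · constructor <;> nlinarith
      have hfan : AnalyticOnNhd ℂ (fun t => f (t, w)) U := by
        refine DifferentiableOn.analyticOnNhd (fun t ht => ?_) hUo
        exact (hf w hw t ht.1 ht.2.1 ht.2.2).differentiableWithinAt
      have hgan : AnalyticOnNhd ℂ (fun t => G (vh Φ q c a₁ v (t - w / 2, w))) U := by
        intro t ht
        have hm := half_mem hS ht.1 (lt_of_lt_of_le ht.2.1 hb) ht.2.2 hw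
        have g1 : AnalyticAt ℂ (fun y : ℂ => (y - w / 2, w)) t :=
          (analyticAt_id.sub analyticAt_const).prod analyticAt_const
        exact (hGv _ hm).comp_of_eq g1 rfl
      have hlm : 0 < ℓ - r := (abs_nonneg _).trans_lt ht3
      set s : ℝ := min b₀ a₁ with hs
      have hs1 : a + r < s := lt_min hb₀ (by linarith)
      set t0 : ℂ := (X : ℂ) + ((a + r + s) / 2 : ℝ) * I with ht0
      have t0im : t0.im = (a + r + s) / 2 := by simp [ht0]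
      have t0re : t0.re = X := by simp [ht0]
      have ht0U : t0 ∈ U := by
        refine ⟨?_, ?_, ?_⟩
        · rw [t0im]; linarith
        · rw [t0im]; have := min_le_left b₀ a₁; linarith
        · rw [t0re, sub_self, abs_zero]; exact hlm
      have hnear : (fun t => G (vh Φ q c a₁ v (t - w / 2, w))) =ᶠ[𝓝 t0] fun t => f (t, w) := by
        have h1 : ∀ᶠ t in 𝓝 t0, t ∈ U := hUo.mem_nhds ht0U
        have h2 : ∀ᶠ t in 𝓝 t0, t.im < s := by
          refine continuous_im.continuousAt.eventually_lt_const ?_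
          rw [t0im]; linarith
        filter_upwards [h1, h2] with t g1 g2
        have hm := half_mem hS g1.1 (lt_of_lt_of_le g1.2.1 hb) g1.2.2 hw
        have i0 := hS.im _ hw
        have e1 : (t - w / 2).im = t.im - w.im / 2 := by
          rw [Complex.sub_im]; congr 1; simp
        have hlt : (t - w / 2).im < a₁ := by
          rw [e1]
          have := min_le_right b₀ a₁
          linarith
        rw [C2 _ hm hlt]
        have hm' : (t - w / 2, w) ∈ S0 X ℓ₀ a a₁ W := by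
          refine ⟨hm.1, hlt, ?_, hw⟩
          refine hm.2.2.1.trans_le ?_
          have h5 : 0 < b - a := by
            have := hm.1; have := hm.2.1; linarith
          have : 0 ≤ κ * (b - a) := by positivity
          linarith
        have h6 := hfG _ hm'
        simp only at h6
        rw [← h6]
        congr 2
        ring
      exact hgan.eqOn_of_preconnected_of_eventuallyEq hfan hUc.isPreconnected ht0U hnear
        ⟨ht1, ht2, ht3⟩
    rintro ⟨t, w⟩ ⟨h1, h2, h3, h4⟩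
    simp only at h1 h2 h3 h4
    rcases h4 with hw | hw
    · have i0 := hS.im _ hw
      rw [lh, if_pos i0]
      exact key w hw t h1 h2 h3
    · have i0 := hS.im _ hw
      have i1 : w.im < 0 := by rw [Complex.neg_im] at i0; linarith
      rw [lh, if_neg (not_lt.2 i1.le)]
      have h5 := key (-w) hw t h1 h2 h3
      have e : (t - -w / 2, -w) = (t + w / 2, -w) := by
        congr 1; ring
      rw [e] at h5
      show G (vh Φ q c a₁ v (t + w / 2, -w)) = _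
      rw [h5]
      exact hev (t, w)

end

end Vale.Agent.P097.H690.LD
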