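import Vale.Agent.P097.H531.CD.Defs
import Vale.Agent.P097.H690.LD.Climb

/-! # P097 / case [d], Row C, part 1: a line through two vertices

`Gl F q a p x` = incidence of the vertex `x` and the line `(a, p)`.  If it vanishes at two near
points `x₀`, `x₁`, the angle `a - F x₀` is nearly a multiple of `π`, and the derivative at `x₀` is
close to `c (x₁ - x₀) / 2`. -/

set_option linter.all false

open Complex Metric Filter Topology Set

namespace Vale.Agent.P097.H690.LD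

open Vale.Agent.P097 Vale.Agent.P097.SC Vale.Agent.P097.H133.Tm Vale.Agent.P097.CD

/-- incidence function of the line `(a, p)` -/
noncomputable def Gl (F q : ℂ → ℂ) (a p x : ℂ) : ℂ :=
  deriv F x * (q x * Complex.cos (a - F x) - p) + deriv q x * Complex.sin (a - F x)

/-- its derivative -/
noncomputable def Gl1 (F q : ℂ → ℂ) (a p x : ℂ) : ℂ :=
  deriv (deriv F) x * (q x * Complex.cos (a - F x) - p) +
    (deriv (deriv q) x + q x * deriv F x ^ 2) * Complex.sin (a - F x)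

variable {Λ : ℝ} {F q Q : ℂ → ℂ}

theorem Bs.cne (h : Bs Λ F q Q) : ((Λ : ℂ) ^ 3) ≠ 0 :=
  pow_ne_zero 3 (by exact_mod_cast h.Λ0.ne')

theorem Bs.crv (h : Bs Λ F q Q) (x : ℂ) : Crv F q ((Λ : ℂ) ^ 3) x :=
  ⟨h.dF.analyticAt x, h.dq.analyticAt x, Filter.Eventually.of_forall h.wr⟩

theorem hasDerivAt_Gl (h : Bs Λ F q Q) (a p x : ℂ) :
    HasDerivAt (Gl F q a p) (Gl1 F q a p x) x := by
  have hΦ := h.dF.analyticAt x
  have hq := h.dq.analyticAt x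
  have h1 := hΦ.differentiableAt.hasDerivAt
  have h2 := hΦ.deriv.differentiableAt.hasDerivAt
  have h3 := hq.differentiableAt.hasDerivAt
  have h4 := hq.deriv.differentiableAt.hasDerivAt
  have hA := h1.const_sub a
  have hc := (Complex.hasDerivAt_cos (a - F x)).comp x hA
  have hs := (Complex.hasDerivAt_sin (a - F x)).comp x hA
  have h5 := (h2.mul ((h3.mul hc).sub_const p)).add (h4.mul hs)
  refine h5.congr_deriv ?_
  simp only [Function.comp, Gl1, Pi.mul_apply]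
  ring

theorem hasDerivAt_Gl1 (h : Bs Λ F q Q) (a p x : ℂ) :
    HasDerivAt (Gl1 F q a p) (Q x * Gl F q a p x - (Λ : ℂ) ^ 3 * Complex.cos (a - F x)) x := by
  have hC := Bs.crv h x
  have h1 := hC.aΦ.differentiableAt.hasDerivAt
  have h2 := hC.aΦ.deriv.differentiableAt.hasDerivAt
  have h22 := hC.aΦ.deriv.deriv.differentiableAt.hasDerivAt
  have h3 := hC.aq.differentiableAt.hasDerivAt
  have h4 := hC.aq.deriv.deriv.differentiableAt.hasDerivAt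
  have hA := h1.const_sub a
  have hcs := (Complex.hasDerivAt_cos (a - F x)).comp x hA
  have hs := (Complex.hasDerivAt_sin (a - F x)).comp x hA
  have h5 := (h22.mul ((h3.mul hcs).sub_const p)).add
    ((h4.add (h3.mul (h2.pow 2))).mul hs)
  refine h5.congr_deriv ?_
  have e1 := h.gQ x
  have e2 := third_eq hC (Bs.cne h) (h.dQ.analyticAt x) (Filter.Eventually.of_forall h.gQ)
  have hw := h.wr x
  rw [Wr] at hw
  simp only [Function.comp, Gl, Pi.mul_apply, Pi.add_apply, Pi.pow_apply]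
  rw [e1]
  push_cast
  norm_num
  linear_combination (Complex.sin (a - F x)) * e2 -
    (Complex.cos (a - F x)) * hw

/-- second order equation with two zeros: Taylor at `0` -/
theorem bvp {f f1 f2 : ℝ → ℂ} {m : ℂ} {K : ℝ}
    (h1 : ∀ s ∈ Icc (0 : ℝ) 1, HasDerivAt f (f1 s) s)
    (h2 : ∀ s ∈ Icc (0 : ℝ) 1, HasDerivAt f1 (f2 s) s)
    (hb : ∀ s ∈ Icc (0 : ℝ) 1, ‖f2 s - m‖ ≤ K) (f0 : f 0 = 0) (e1 : f 1 = 0) :
    ‖f1 0 + m / 2‖ ≤ K := by
  have hd : ∀ s ∈ Icc (0 : ℝ) 1, HasDerivWithinAt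
      (fun s : ℝ => f s + (1 - (s : ℂ)) * f1 s + (1 - (s : ℂ)) ^ 2 / 2 * m)
      ((1 - (s : ℂ)) * (f2 s - m)) (Icc 0 1) s := by
    intro s hs
    have hs1 : HasDerivAt (fun s : ℝ => 1 - (s : ℂ)) (-1) s := by
      simpa using (Complex.ofRealCLM.hasDerivAt (x := s)).const_sub (1 : ℂ)
    have h3 := ((h1 s hs).add (hs1.mul (h2 s hs))).add
      (((hs1.pow 2).div_const 2).mul_const m)
    refine (h3.congr_deriv ?_).hasDerivWithinAt
    push_cast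
    ring
  have h := (convex_Icc (0 : ℝ) 1).norm_image_sub_le_of_norm_hasDerivWithin_le hd
    (C := K) (fun s hs => by
      rw [norm_mul]
      have h4 : ‖(1 - (s : ℂ))‖ ≤ 1 := by
        have : (1 - (s : ℂ)) = ((1 - s : ℝ) : ℂ) := by push_cast; ring
        rw [this, Complex.norm_real, Real.norm_eq_abs, abs_le]
        constructor <;> linarith [hs.1, hs.2]
      calc ‖(1 - (s : ℂ))‖ * ‖f2 s - m‖ ≤ 1 * K :=
            mul_le_mul h4 (hb s hs) (norm_nonneg _) zero_le_one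
        _ = K := one_mul _)
    (x := 1) (y := 0) (by simp) (by simp)
  simp only [f0, e1] at h
  norm_num at h
  have e : f1 0 + m / 2 = f1 0 + 1 / 2 * m := by ring
  rw [e]
  exact h

/-- the sup bound -/
theorem bvp_sup {f f1 f2 : ℝ → ℂ} {K : ℝ}
    (h1 : ∀ s ∈ Icc (0 : ℝ) 1, HasDerivAt f (f1 s) s)
    (h2 : ∀ s ∈ Icc (0 : ℝ) 1, HasDerivAt f1 (f2 s) s)
    (hb : ∀ s ∈ Icc (0 : ℝ) 1, ‖f2 s‖ ≤ K) (f0 : f 0 = 0) (e1 : f 1 = 0) {s : ℝ}
    (hs : s ∈ Icc (0 : ℝ) 1) : ‖f s‖ ≤ 2 * K := by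
  have h0 : (0 : ℝ) ∈ Icc (0 : ℝ) 1 := by simp
  have hK : 0 ≤ K := (norm_nonneg _).trans (hb 0 h0)
  have a0 : ‖f1 0‖ ≤ K := by
    have h := bvp (m := 0) h1 h2 (fun s hs => by simpa using hb s hs) f0 e1
    simpa using h
  have a1 : ∀ x ∈ Icc (0 : ℝ) 1, ‖f1 x - f1 0‖ ≤ K := by
    intro x hx
    have h := (convex_Icc (0 : ℝ) 1).norm_image_sub_le_of_norm_hasDerivWithin_le (f := f1)
      (f' := f2) (C := K) (x := 0) (y := x) (fun y hy => (h2 y hy).hasDerivWithinAt) hb h0 hx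
    refine h.trans ?_
    rw [sub_zero, Real.norm_eq_abs, abs_of_nonneg hx.1]
    nlinarith [hx.1, hx.2]
  have a2 : ∀ x ∈ Icc (0 : ℝ) 1, ‖f1 x‖ ≤ 2 * K := by
    intro x hx
    have : ‖f1 x‖ ≤ ‖f1 x - f1 0‖ + ‖f1 0‖ := by
      simpa using norm_add_le (f1 x - f1 0) (f1 0)
    linarith [a1 x hx]
  have h := (convex_Icc (0 : ℝ) 1).norm_image_sub_le_of_norm_hasDerivWithin_le (f := f)
    (f' := f1) (C := 2 * K) (x := 0) (y := s) (fun y hy => (h1 y hy).hasDerivWithinAt) a2 h0 hs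
  rw [f0, sub_zero, sub_zero, Real.norm_eq_abs, abs_of_nonneg hs.1] at h
  refine h.trans ?_
  nlinarith [hs.1, hs.2]

/-- `F' Gl1 = c sin` at an incident vertex -/
theorem Gl1_sin (h : Bs Λ F q Q) {a p x : ℂ} (hG : Gl F q a p x = 0) :
    deriv F x * Gl1 F q a p x = (Λ : ℂ) ^ 3 * Complex.sin (a - F x) := by
  have hw := h.wr x
  rw [Wr] at hw
  rw [Gl] at hG
  rw [Gl1]
  linear_combination deriv (deriv F) x * hG + Complex.sin (a - F x) * hw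

/-- **the line through two vertices** -/
theorem two_pt (h : Bs Λ F q Q) {V : Set ℂ} (hV : Convex ℝ V) {A₀ M : ℝ}
    (bA : ∀ x ∈ V, ‖deriv F x‖ ≤ A₀) (bM : ∀ x ∈ V, ‖Q x‖ ≤ M) {a p x₀ x₁ : ℂ} (h0 : x₀ ∈ V)
    (h1 : x₁ ∈ V) (g0 : Gl F q a p x₀ = 0) (g1 : Gl F q a p x₁ = 0)
    (hM : 4 * (M * ‖x₁ - x₀‖ ^ 2) ≤ 1) (hA : A₀ * ‖x₁ - x₀‖ ≤ 1 / 2) (hne : x₁ ≠ x₀) :
    ‖Complex.sin (a - F x₀)‖ ≤ 2 * (A₀ * ‖x₁ - x₀‖) *
      (2 * ‖Complex.cos (a - F x₀)‖ + ‖Complex.sin (a - F x₀)‖) ∧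
    ∀ ν : ℝ, (∀ y : ℂ, ‖y‖ ≤ A₀ * ‖x₁ - x₀‖ → ‖Complex.cos (a - F x₀ - y) - 1‖ ≤ ν) → ν ≤ 1 →
      ‖Gl1 F q a p x₀ / (Λ : ℂ) ^ 3 - (x₁ - x₀) / 2‖ ≤
        ‖x₁ - x₀‖ * (8 * (M * ‖x₁ - x₀‖ ^ 2) + ν) := by
  have hc := Bs.cne h
  set c : ℂ := (Λ : ℂ) ^ 3 with hcd
  have hc0 : 0 < ‖c‖ := norm_pos_iff.2 hc
  set d : ℂ := x₁ - x₀ with hd
  have hd0 : 0 < ‖d‖ := norm_pos_iff.2 (sub_ne_zero.2 hne)
  have hdn : d ≠ 0 := sub_ne_zero.2 hne
  have hM0 : 0 ≤ M := (norm_nonneg _).trans (bM _ h0)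
  have hA0 : 0 ≤ A₀ := (norm_nonneg _).trans (bA _ h0)
  have hmem : ∀ s ∈ Icc (0 : ℝ) 1, x₀ + s * d ∈ V := by
    intro s hs
    have := hV h0 h1 (a := 1 - s) (b := s) (by linarith [hs.2]) hs.1 (by ring)
    have e : (1 - s) • x₀ + s • x₁ = x₀ + s * d := by
      rw [hd, Complex.real_smul, Complex.real_smul]; push_cast; ring
    rwa [e] at this
  have hlin : ∀ s : ℝ, HasDerivAt (fun s : ℝ => x₀ + (s : ℂ) * d) d s := by
    intro s
    simpa using ((Complex.ofRealCLM.hasDerivAt (x := s)).mul_const d).const_add x₀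
  -- variation of `F`
  have hF : ∀ s ∈ Icc (0 : ℝ) 1, ‖F (x₀ + s * d) - F x₀‖ ≤ A₀ * ‖d‖ := by
    intro s hs
    have h3 := hV.norm_image_sub_le_of_norm_hasDerivWithin_le (f := F) (f' := deriv F) (C := A₀)
      (x := x₀) (y := x₀ + s * d) (fun y hy => (h.dF y).hasDerivAt.hasDerivWithinAt) bA h0
      (hmem s hs)
    refine h3.trans ?_
    have e : x₀ + s * d - x₀ = s * d := by ring
    rw [e, norm_mul, Complex.norm_real, Real.norm_eq_abs, abs_of_nonneg hs.1]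
    have : s * ‖d‖ ≤ 1 * ‖d‖ := mul_le_mul_of_nonneg_right hs.2 hd0.le
    calc A₀ * (s * ‖d‖) ≤ A₀ * (1 * ‖d‖) := mul_le_mul_of_nonneg_left this hA0
      _ = _ := by ring
  set N : ℝ := 2 * ‖Complex.cos (a - F x₀)‖ + ‖Complex.sin (a - F x₀)‖ with hN
  have hN0 : 0 ≤ N := by positivity
  have hcosN : ∀ s ∈ Icc (0 : ℝ) 1, ‖Complex.cos (a - F (x₀ + s * d))‖ ≤ N := by
    intro s hs
    have h4 := hF s hs
    set y := F (x₀ + s * d) - F x₀ with hy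
    have hy2 : ‖y‖ ≤ 1 / 2 := h4.trans hA
    have e : a - F (x₀ + s * d) = (a - F x₀) - y := by rw [hy]; ring
    rw [e, Complex.cos_sub]
    refine (norm_add_le _ _).trans ?_
    rw [norm_mul, norm_mul]
    have c1 := norm_cos_le hy2
    have c2 : ‖Complex.sin y‖ ≤ 1 := (norm_sin_le hy2).trans (by linarith)
    have c3 : ‖Complex.cos (a - F x₀)‖ * ‖Complex.cos y‖ ≤ ‖Complex.cos (a - F x₀)‖ * 2 :=
      mul_le_mul_of_nonneg_left c1 (norm_nonneg _)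
    have c4 : ‖Complex.sin (a - F x₀)‖ * ‖Complex.sin y‖ ≤ ‖Complex.sin (a - F x₀)‖ * 1 :=
      mul_le_mul_of_nonneg_left c2 (norm_nonneg _)
    rw [hN]; linarith
  set f : ℝ → ℂ := fun s => Gl F q a p (x₀ + s * d) with hf
  set f1 : ℝ → ℂ := fun s => Gl1 F q a p (x₀ + s * d) * d with hf1
  set f2 : ℝ → ℂ := fun s => (Q (x₀ + s * d) * Gl F q a p (x₀ + s * d) -
    c * Complex.cos (a - F (x₀ + s * d))) * d * d with hf2
  have d1 : ∀ s ∈ Icc (0 : ℝ) 1, HasDerivAt f (f1 s) s := fun s _ =>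
    (hasDerivAt_Gl h a p (x₀ + s * d)).comp_of_eq s (hlin s) rfl
  have d2 : ∀ s ∈ Icc (0 : ℝ) 1, HasDerivAt f1 (f2 s) s := fun s _ =>
    ((hasDerivAt_Gl1 h a p (x₀ + s * d)).comp_of_eq s (hlin s) rfl).mul_const d
  have f0 : f 0 = 0 := by simp only [hf]; simpa using g0
  have fe : f 1 = 0 := by
    simp only [hf]
    have e : x₀ + ((1 : ℝ) : ℂ) * d = x₁ := by rw [hd]; push_cast; ring
    rw [e]; exact g1
  -- sup of `f`
  have hcont : ContinuousOn (fun s => ‖f s‖) (Icc (0 : ℝ) 1) := fun s hs =>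
    (d1 s hs).continuousAt.continuousWithinAt.norm
  obtain ⟨s₀, hs₀, hmax⟩ := isCompact_Icc.exists_isMaxOn ⟨0, by simp⟩ hcont
  set S : ℝ := ‖f s₀‖ with hS
  have hS0 : 0 ≤ S := norm_nonneg _
  have hle : ∀ s ∈ Icc (0 : ℝ) 1, ‖f s‖ ≤ S := fun s hs => hmax hs
  have hf2b : ∀ s ∈ Icc (0 : ℝ) 1, ‖f2 s‖ ≤ (M * S + ‖c‖ * N) * ‖d‖ ^ 2 := by
    intro s hs
    rw [hf2]
    simp only
    rw [norm_mul, norm_mul]
    have b1 : ‖Q (x₀ + s * d) * Gl F q a p (x₀ + s * d) -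
        c * Complex.cos (a - F (x₀ + s * d))‖ ≤ M * S + ‖c‖ * N := by
      refine (norm_sub_le _ _).trans ?_
      rw [norm_mul, norm_mul]
      exact add_le_add (mul_le_mul (bM _ (hmem s hs)) (hle s hs) (norm_nonneg _) hM0)
        (mul_le_mul_of_nonneg_left (hcosN s hs) hc0.le)
    calc _ ≤ (M * S + ‖c‖ * N) * ‖d‖ * ‖d‖ := by gcongr
      _ = _ := by ring
  have hSb : S ≤ 4 * (‖c‖ * N * ‖d‖ ^ 2) := by
    have h5 := bvp_sup d1 d2 hf2b f0 fe hs₀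
    have h6 : 2 * ((M * S + ‖c‖ * N) * ‖d‖ ^ 2) = 2 * (M * ‖d‖ ^ 2) * S +
      2 * (‖c‖ * N * ‖d‖ ^ 2) := by ring
    rw [h6] at h5
    have h7 : 2 * (M * ‖d‖ ^ 2) * S ≤ 1 / 2 * S :=
      mul_le_mul_of_nonneg_right (by linarith) hS0
    linarith
  have hf10 : f1 0 = Gl1 F q a p x₀ * d := by
    simp only [hf1]; simp
  refine ⟨?_, ?_⟩
  · have h8 := bvp (m := 0) d1 d2 (fun s hs => by simpa using hf2b s hs) f0 fe
    rw [zero_div, add_zero, hf10, norm_mul] at h8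
    have h9 : (M * S + ‖c‖ * N) * ‖d‖ ^ 2 ≤ 2 * (‖c‖ * N) * ‖d‖ * ‖d‖ := by
      have h10 : M * S ≤ ‖c‖ * N := by
        calc M * S ≤ M * (4 * (‖c‖ * N * ‖d‖ ^ 2)) := mul_le_mul_of_nonneg_left hSb hM0
          _ = (4 * (M * ‖d‖ ^ 2)) * (‖c‖ * N) := by ring
          _ ≤ 1 * (‖c‖ * N) := mul_le_mul_of_nonneg_right hM (by positivity)
          _ = _ := one_mul _
      calc (M * S + ‖c‖ * N) * ‖d‖ ^ 2 ≤ (‖c‖ * N + ‖c‖ * N) * ‖d‖ ^ 2 := by gcongr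
        _ = _ := by ring
    have h11 : ‖Gl1 F q a p x₀‖ ≤ 2 * (‖c‖ * N) * ‖d‖ :=
      le_of_mul_le_mul_right (h8.trans h9) hd0
    have h12 : ‖c‖ * ‖Complex.sin (a - F x₀)‖ ≤ ‖c‖ * (2 * (A₀ * ‖d‖) * N) := by
      rw [← norm_mul, ← Gl1_sin h g0, norm_mul]
      calc ‖deriv F x₀‖ * ‖Gl1 F q a p x₀‖ ≤ A₀ * (2 * (‖c‖ * N) * ‖d‖) :=
            mul_le_mul (bA _ h0) h11 (norm_nonneg _) hA0
        _ = _ := by ring
    exact le_of_mul_le_mul_left h12 hc0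
  · intro ν hν hν1
    have hν0 : 0 ≤ ν := (norm_nonneg _).trans (hν 0 (by simp; positivity))
    have hcos1 : ∀ s ∈ Icc (0 : ℝ) 1, ‖Complex.cos (a - F (x₀ + s * d)) - 1‖ ≤ ν := by
      intro s hs
      have := hν (F (x₀ + s * d) - F x₀) (hF s hs)
      have e : a - F x₀ - (F (x₀ + s * d) - F x₀) = a - F (x₀ + s * d) := by ring
      rwa [e] at this
    have hcos2 : ∀ s ∈ Icc (0 : ℝ) 1, ‖Complex.cos (a - F (x₀ + s * d))‖ ≤ 2 := by
      intro s hs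
      have h13 := hcos1 s hs
      have : ‖Complex.cos (a - F (x₀ + s * d))‖ ≤ ‖Complex.cos (a - F (x₀ + s * d)) - 1‖ + 1 := by
        simpa using norm_add_le (Complex.cos (a - F (x₀ + s * d)) - 1) 1
      linarith
    -- better sup bound
    have hf2b' : ∀ s ∈ Icc (0 : ℝ) 1, ‖f2 s‖ ≤ (M * S + ‖c‖ * 2) * ‖d‖ ^ 2 := by
      intro s hs
      rw [hf2]
      simp only
      rw [norm_mul, norm_mul]
      have b1 : ‖Q (x₀ + s * d) * Gl F q a p (x₀ + s * d) -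
          c * Complex.cos (a - F (x₀ + s * d))‖ ≤ M * S + ‖c‖ * 2 := by
        refine (norm_sub_le _ _).trans ?_
        rw [norm_mul, norm_mul]
        exact add_le_add (mul_le_mul (bM _ (hmem s hs)) (hle s hs) (norm_nonneg _) hM0)
          (mul_le_mul_of_nonneg_left (hcos2 s hs) hc0.le)
      calc _ ≤ (M * S + ‖c‖ * 2) * ‖d‖ * ‖d‖ := by gcongr
        _ = _ := by ring
    have hSb' : S ≤ 8 * (‖c‖ * ‖d‖ ^ 2) := by
      have h5 := bvp_sup d1 d2 hf2b' f0 fe hs₀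
      have h6 : 2 * ((M * S + ‖c‖ * 2) * ‖d‖ ^ 2) = 2 * (M * ‖d‖ ^ 2) * S +
        4 * (‖c‖ * ‖d‖ ^ 2) := by ring
      rw [h6] at h5
      have h7 : 2 * (M * ‖d‖ ^ 2) * S ≤ 1 / 2 * S :=
        mul_le_mul_of_nonneg_right (by linarith) hS0
      linarith
    have h14 := bvp (m := -(c * d * d)) (K := (8 * (M * ‖d‖ ^ 2) + ν) * (‖c‖ * ‖d‖ ^ 2)) d1 d2
      (fun s hs => by
        have e : f2 s - -(c * d * d) = (Q (x₀ + s * d) * Gl F q a p (x₀ + s * d) -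
            c * (Complex.cos (a - F (x₀ + s * d)) - 1)) * d * d := by
          simp only [hf2]; ring
        rw [e, norm_mul, norm_mul]
        have b1 : ‖Q (x₀ + s * d) * Gl F q a p (x₀ + s * d) -
            c * (Complex.cos (a - F (x₀ + s * d)) - 1)‖ ≤ M * (8 * (‖c‖ * ‖d‖ ^ 2)) + ‖c‖ * ν := by
          refine (norm_sub_le _ _).trans ?_
          rw [norm_mul, norm_mul]
          exact add_le_add (mul_le_mul (bM _ (hmem s hs)) ((hle s hs).trans hSb')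
            (norm_nonneg _) hM0) (mul_le_mul_of_nonneg_left (hcos1 s hs) hc0.le)
        calc _ ≤ (M * (8 * (‖c‖ * ‖d‖ ^ 2)) + ‖c‖ * ν) * ‖d‖ * ‖d‖ := by gcongr
          _ = _ := by ring) f0 fe
    rw [hf10] at h14
    have e : Gl1 F q a p x₀ * d + -(c * d * d) / 2 = (Gl1 F q a p x₀ / c - d / 2) * (c * d) := by
      field_simp
      ring
    rw [e, norm_mul, norm_mul] at h14
    have h15 : (8 * (M * ‖d‖ ^ 2) + ν) * (‖c‖ * ‖d‖ ^ 2) =
        (‖d‖ * (8 * (M * ‖d‖ ^ 2) + ν)) * (‖c‖ * ‖d‖) := by ring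
    rw [h15] at h14
    exact le_of_mul_le_mul_right h14 (by positivity)

/-- a path with small sine starting at `0` stays small -/
theorem small_path {f : ℝ → ℂ} {k : ℝ} (hf : ContinuousOn f (Icc 0 1)) (f0 : f 0 = 0)
    (hk : k ≤ 1 / 100) (hs : ∀ s ∈ Icc (0 : ℝ) 1, ‖Complex.sin (f s)‖ ≤ k) : ‖f 1‖ ≤ 2 * k := by
  have hsin : ∀ z : ℂ, ‖z‖ ≤ 1 / 4 → ‖z‖ / 2 ≤ ‖Complex.sin z‖ := by
    intro z hz
    rw [← NZ.mul_snc z, norm_mul]
    have := snc_ne (z := z) (by linarith)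
    nlinarith [norm_nonneg z]
  have h1 : ‖f 1‖ ≤ 1 / 4 := by
    by_contra hcon
    rw [not_le] at hcon
    have hc : ContinuousOn (fun s => ‖f s‖) (Icc (0 : ℝ) 1) := hf.norm
    have hmem : (1 / 4 : ℝ) ∈ Icc ‖f 0‖ ‖f 1‖ := by
      rw [f0, norm_zero]
      exact ⟨by norm_num, hcon.le⟩
    obtain ⟨s, hs1, hs2⟩ := intermediate_value_Icc (zero_le_one) hc hmem
    have hs2' : ‖f s‖ = 1 / 4 := hs2
    have h3 := hsin (f s) hs2'.le
    have h4 := hs s hs1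
    rw [hs2'] at h3
    linarith
  have h2 := hsin (f 1) h1
  have h3 := hs 1 (by simp)
  linarith

theorem sin_small {δ : ℂ} {μ : ℝ} (hμ0 : 0 ≤ μ) (hμ : μ ≤ 1 / 1000)
    (h : ‖Complex.sin δ‖ ≤ 2 * μ * (2 * ‖Complex.cos δ‖ + ‖Complex.sin δ‖)) :
    ‖Complex.sin δ‖ ≤ 10 * μ := by
  have h1 := Complex.cos_sq_add_sin_sq δ
  have h2 : ‖Complex.cos δ‖ ^ 2 ≤ 1 + ‖Complex.sin δ‖ ^ 2 := by
    rw [← norm_pow, ← norm_pow]
    have e : Complex.cos δ ^ 2 = 1 - Complex.sin δ ^ 2 := by rw [← h1]; ring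
    rw [e]
    refine (norm_sub_le _ _).trans ?_
    rw [norm_one]
  have hs0 := norm_nonneg (Complex.sin δ)
  have hc0 := norm_nonneg (Complex.cos δ)
  have h3 : ‖Complex.sin δ‖ ≤ 5 * μ * ‖Complex.cos δ‖ := by nlinarith
  have h4 : ‖Complex.sin δ‖ ≤ 1 / 200 * ‖Complex.cos δ‖ := by nlinarith
  have h5 : ‖Complex.cos δ‖ ≤ 2 := by nlinarith
  nlinarith

end Vale.Agent.P097.H690.LD
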