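import Vale.Agent.P097.H690.LD.RowC1

/-! # P097 / case [d], Row C, part 2: the phase of the vertex `θ (t, w)` -/

set_option linter.all false

open Complex Metric Filter Topology Set

namespace Vale.Agent.P097.H690.LD

open Vale.Agent.P097 Vale.Agent.P097.SC Vale.Agent.P097.H133.Tm Vale.Agent.P097.CD

/-- the hypotheses of Row C, used for the start phase -/
structure Lw (F q Q : ℂ → ℂ) (V : Set ℂ) (A₀ M ε r : ℝ) (L : Set (ℂ × ℂ))
    (A P θ : ℂ × ℂ → ℂ) : Prop where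
  cV : Convex ℝ V
  bA : ∀ x ∈ V, ‖deriv F x‖ ≤ A₀
  bM : ∀ x ∈ V, ‖Q x‖ ≤ M
  aA : AnalyticOnNhd ℂ A L
  aP : AnalyticOnNhd ℂ P L
  aθ : AnalyticOnNhd ℂ θ L
  mV : ∀ u ∈ L, θ u ∈ V
  law : ∀ t w : ℂ, (t + w / 2, w) ∈ L → (t - w / 2, w) ∈ L →
    ‖θ (t + w / 2, w) - θ (t - w / 2, w) - w‖ ≤ ε * ‖w‖ ∧
    A (t + w / 2, w) + A (t - w / 2, w) = 2 * F (θ (t, w)) ∧
    P (t + w / 2, w) + P (t - w / 2, w) =
      2 * q (θ (t, w)) * cos ((A (t + w / 2, w) - A (t - w / 2, w)) / 2) ∧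
    deriv F (θ (t, w)) * (P (t + w / 2, w) - P (t - w / 2, w)) =
      2 * deriv q (θ (t, w)) * sin ((A (t + w / 2, w) - A (t - w / 2, w)) / 2)
  ε1 : ε ≤ 1 / 1000
  A0 : 0 ≤ A₀
  M0 : 0 ≤ M
  μ1 : A₀ * (20 * r) ≤ 1 / 1000
  M1 : 8 * (M * (20 * r) ^ 2) ≤ 1 / 1000

/-- inner points of `L` -/
def Mg (L : Set (ℂ × ℂ)) (r : ℝ) (u : ℂ × ℂ) : Prop :=
  ‖u.2‖ ≤ 10 * r ∧ ∀ z w' : ℂ, ‖z‖ ≤ 2 * ‖u.2‖ → ‖w'‖ ≤ ‖u.2‖ → (u.1 + z, w') ∈ L

/-- half difference of the angles -/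
noncomputable def dl (A : ℂ × ℂ → ℂ) (u : ℂ × ℂ) : ℂ :=
  (A (u.1 + u.2 / 2, u.2) - A (u.1 - u.2 / 2, u.2)) / 2

noncomputable def bt (A P : ℂ × ℂ → ℂ) (u : ℂ × ℂ) : ℂ :=
  (P (u.1 + u.2 / 2, u.2) - P (u.1 - u.2 / 2, u.2)) / 2 / NZ.snc (dl A u)

noncomputable def et (Λ : ℝ) (F q : ℂ → ℂ) (A P θ : ℂ × ℂ → ℂ) (u : ℂ × ℂ) : ℂ :=
  (dl A u * (deriv (deriv q) (θ u) + q (θ u) * deriv F (θ u) ^ 2) -
    deriv (deriv F) (θ u) * bt A P u) / (Λ : ℂ) ^ 3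

/-- the phase of the vertex `θ (t, w)` -/
noncomputable def ph (Λ : ℝ) (F q : ℂ → ℂ) (A P θ : ℂ × ℂ → ℂ) (u : ℂ × ℂ) : ℂ × ℂ :=
  (θ u, et Λ F q A P θ u)

variable {Λ : ℝ} {F q Q : ℂ → ℂ} {V : Set ℂ} {A₀ M ε r : ℝ} {L : Set (ℂ × ℂ)}
  {A P θ : ℂ × ℂ → ℂ}

theorem Mg.p {u : ℂ × ℂ} (h : Mg L r u) : (u.1 + u.2 / 2, u.2) ∈ L := by
  refine h.2 _ _ ?_ le_rfl
  rw [norm_div]
  have e : ‖(2 : ℂ)‖ = 2 := by norm_num
  rw [e]
  linarith [norm_nonneg u.2]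

theorem Mg.m {u : ℂ × ℂ} (h : Mg L r u) : (u.1 - u.2 / 2, u.2) ∈ L := by
  rw [sub_eq_add_neg]
  refine h.2 _ _ ?_ le_rfl
  rw [norm_neg, norm_div]
  have e : ‖(2 : ℂ)‖ = 2 := by norm_num
  rw [e]
  linarith [norm_nonneg u.2]

theorem Mg.z {u : ℂ × ℂ} (h : Mg L r u) : u ∈ L := by
  have := h.2 0 u.2 (by simp) le_rfl
  simpa using this

theorem Mg.one {u : ℂ × ℂ} (h : Mg L r u) : (u.1 + u.2, u.2) ∈ L := by
  refine h.2 _ _ ?_ le_rfl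
  linarith [norm_nonneg u.2]

theorem Mg.th {u : ℂ × ℂ} (h : Mg L r u) : (u.1 + u.2 + u.2 / 2, u.2) ∈ L := by
  have e : u.1 + u.2 + u.2 / 2 = u.1 + (3 / 2) * u.2 := by ring
  rw [e]
  refine h.2 _ _ ?_ le_rfl
  rw [norm_mul]
  have e : ‖(3 / 2 : ℂ)‖ = 3 / 2 := by norm_num
  rw [e]
  linarith [norm_nonneg u.2]

/-- scaling of the label -/
theorem Mg.scale {u : ℂ × ℂ} (h : Mg L r u) {s : ℝ} (hs : s ∈ Icc (0 : ℝ) 1) :
    Mg L r (u.1, s * u.2) := by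
  have e : ‖(s : ℂ) * u.2‖ ≤ ‖u.2‖ := by
    rw [norm_mul, Complex.norm_real, Real.norm_eq_abs, abs_of_nonneg hs.1]
    exact mul_le_of_le_one_left (norm_nonneg _) hs.2
  refine ⟨e.trans h.1, fun z w' hz hw => h.2 z w' ?_ ?_⟩
  · simp only at hz; linarith
  · exact hw.trans e

theorem Gl_zero {Ap Am Pp Pm x : ℂ} (h1 : Ap + Am = 2 * F x)
    (h2 : Pp + Pm = 2 * q x * cos ((Ap - Am) / 2))
    (h3 : deriv F x * (Pp - Pm) = 2 * deriv q x * sin ((Ap - Am) / 2)) :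
    Gl F q Ap Pp x = 0 ∧ Gl F q Am Pm x = 0 := by
  have e1 : Ap - F x = (Ap - Am) / 2 := by linear_combination (1 / 2 : ℂ) * h1
  have e2 : Am - F x = -((Ap - Am) / 2) := by linear_combination (1 / 2 : ℂ) * h1
  constructor
  · rw [Gl, e1]
    linear_combination (-(1 / 2 : ℂ)) * h3 - (1 / 2 : ℂ) * deriv F x * h2
  · rw [Gl, e2, Complex.cos_neg, Complex.sin_neg]
    linear_combination (1 / 2 : ℂ) * h3 - (1 / 2 : ℂ) * deriv F x * h2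

/-- two consecutive vertices on the line `t + w / 2` -/
theorem two_vert (hB : Bs Λ F q Q) (H : Lw F q Q V A₀ M ε r L A P θ) {u : ℂ × ℂ}
    (hu : Mg L r u) (h0 : u.2 ≠ 0) :
    Gl F q (A (u.1 + u.2 / 2, u.2)) (P (u.1 + u.2 / 2, u.2)) (θ u) = 0 ∧
    Gl F q (A (u.1 + u.2 / 2, u.2)) (P (u.1 + u.2 / 2, u.2)) (θ (u.1 + u.2, u.2)) = 0 ∧
    ‖θ (u.1 + u.2, u.2) - θ u - u.2‖ ≤ 1 / 1000 * ‖u.2‖ ∧
    A (u.1 + u.2 / 2, u.2) - F (θ u) = dl A u ∧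
    ‖dl A u‖ = ‖A (u.1 + u.2 / 2, u.2) - F (θ u)‖ ∧
    θ (u.1 + u.2, u.2) ≠ θ u ∧ ‖θ (u.1 + u.2, u.2) - θ u‖ ≤ 1001 / 1000 * ‖u.2‖ ∧
    ‖Complex.sin (dl A u)‖ ≤ 10 * (A₀ * (20 * r)) ∧
    ∀ ν : ℝ, (∀ y : ℂ, ‖y‖ ≤ A₀ * (20 * r) → ‖Complex.cos (dl A u - y) - 1‖ ≤ ν) → ν ≤ 1 →
      ‖Gl1 F q (A (u.1 + u.2 / 2, u.2)) (P (u.1 + u.2 / 2, u.2)) (θ u) / (Λ : ℂ) ^ 3 -
        (θ (u.1 + u.2, u.2) - θ u) / 2‖ ≤
        ‖θ (u.1 + u.2, u.2) - θ u‖ * (1 / 1000 + ν) := by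
  obtain ⟨t, w⟩ := u
  simp only at h0 ⊢
  obtain ⟨-, l1, l2, l3⟩ := H.law t w hu.p hu.m
  have hm1 : (t + w - w / 2, w) ∈ L := by
    have e : t + w - w / 2 = t + w / 2 := by ring
    rw [e]; exact hu.p
  obtain ⟨-, k1, k2, k3⟩ := H.law (t + w) w hu.th hm1
  have e1 : t + w - w / 2 = t + w / 2 := by ring
  have hs1 : (t + w / 2 + w / 2, w) ∈ L := by
    have e : t + w / 2 + w / 2 = t + w := by ring
    rw [e]; exact hu.one
  have hs2 : (t + w / 2 - w / 2, w) ∈ L := by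
    have e : t + w / 2 - w / 2 = t := by ring
    rw [e]; exact hu.z
  obtain ⟨s1, -, -, -⟩ := H.law (t + w / 2) w hs1 hs2
  have e2 : t + w / 2 + w / 2 = t + w := by ring
  have e3 : t + w / 2 - w / 2 = t := by ring
  rw [e2, e3] at s1
  have g0 := (Gl_zero l1 l2 l3).1
  have g1 := (Gl_zero k1 k2 k3).2
  rw [e1] at g1
  have hw0 : 0 < ‖w‖ := norm_pos_iff.2 h0
  have s2 : ‖θ (t + w, w) - θ (t, w) - w‖ ≤ 1 / 1000 * ‖w‖ :=
    s1.trans (mul_le_mul_of_nonneg_right H.ε1 hw0.le)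
  have hd : A (t + w / 2, w) - F (θ (t, w)) = dl A (t, w) := by
    rw [dl]
    simp only
    linear_combination (1 / 2 : ℂ) * l1
  have hne : θ (t + w, w) ≠ θ (t, w) := by
    intro h
    rw [h, sub_self, zero_sub, norm_neg] at s2
    linarith
  have hle : ‖θ (t + w, w) - θ (t, w)‖ ≤ 1001 / 1000 * ‖w‖ := by
    have : ‖θ (t + w, w) - θ (t, w)‖ ≤ ‖θ (t + w, w) - θ (t, w) - w‖ + ‖w‖ := by
      simpa using norm_add_le (θ (t + w, w) - θ (t, w) - w) w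
    linarith
  have hr : ‖w‖ ≤ 10 * r := hu.1
  have hle2 : ‖θ (t + w, w) - θ (t, w)‖ ≤ 20 * r := by linarith
  have hn0 := norm_nonneg (θ (t + w, w) - θ (t, w))
  have hA0 := H.A0
  have hM0 := H.M0
  have hr0 : 0 ≤ r := by linarith
  have b1 : A₀ * ‖θ (t + w, w) - θ (t, w)‖ ≤ A₀ * (20 * r) := by gcongr
  have b2 : M * ‖θ (t + w, w) - θ (t, w)‖ ^ 2 ≤ M * (20 * r) ^ 2 := by gcongr
  have hμ := H.μ1
  have hM1 := H.M1
  have hTP := two_pt hB H.cV H.bA H.bM (H.mV _ hu.z) (H.mV _ hu.one) g0 g1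
    (by linarith) (by linarith) hne
  rw [hd] at hTP
  obtain ⟨T1, T2⟩ := hTP
  refine ⟨g0, g1, s2, hd, by rw [hd], hne, hle, ?_, ?_⟩
  · have h5 := sin_small (δ := dl A (t, w)) (μ := A₀ * ‖θ (t + w, w) - θ (t, w)‖)
      (by positivity) (by linarith) T1
    linarith
  · intro ν hν hν1
    refine (T2 ν (fun y hy => hν y (hy.trans b1)) hν1).trans ?_
    refine mul_le_mul_of_nonneg_left ?_ hn0
    linarith

/-- the angle between two consecutive lines is small -/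
theorem dl_small (hB : Bs Λ F q Q) (H : Lw F q Q V A₀ M ε r L A P θ) {u : ℂ × ℂ}
    (hu : Mg L r u) : ‖dl A u‖ ≤ 20 * (A₀ * (20 * r)) := by
  have hμ := H.μ1
  have hA0 := H.A0
  have hr0 : 0 ≤ r := by have := hu.1; linarith [norm_nonneg u.2]
  have h := small_path (f := fun s : ℝ => dl A (u.1, s * u.2)) (k := 10 * (A₀ * (20 * r))) ?_ ?_
    (by linarith) ?_
  · have e : dl A (u.1, ((1 : ℝ) : ℂ) * u.2) = dl A u := by
      rw [Complex.ofReal_one, one_mul]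
    simp only [e] at h
    linarith
  · intro s hs
    have hm := hu.scale hs
    have h1 : ContinuousAt (fun s : ℝ => A (u.1 + s * u.2 / 2, s * u.2)) s := by
      have h2 : ContinuousAt A (u.1 + s * u.2 / 2, s * u.2) := (H.aA _ hm.p).continuousAt
      have h3 : Continuous fun s : ℝ => (u.1 + (s : ℂ) * u.2 / 2, (s : ℂ) * u.2) := by fun_prop
      exact h2.comp_of_eq h3.continuousAt rfl
    have h1' : ContinuousAt (fun s : ℝ => A (u.1 - s * u.2 / 2, s * u.2)) s := by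
      have h2 : ContinuousAt A (u.1 - s * u.2 / 2, s * u.2) := (H.aA _ hm.m).continuousAt
      have h3 : Continuous fun s : ℝ => (u.1 - (s : ℂ) * u.2 / 2, (s : ℂ) * u.2) := by fun_prop
      exact h2.comp_of_eq h3.continuousAt rfl
    exact ((h1.sub h1').div_const 2).continuousWithinAt
  · simp [dl]
  · intro s hs
    have hm := hu.scale hs
    by_cases h0 : ((s : ℂ) * u.2) = 0
    · have e : dl A (u.1, (s : ℂ) * u.2) = 0 := by
        rw [h0]; simp [dl]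
      simp only [e, Complex.sin_zero, norm_zero]
      positivity
    · exact (two_vert hB H hm h0).2.2.2.2.2.2.2.1

theorem dl_small' (hB : Bs Λ F q Q) (H : Lw F q Q V A₀ M ε r L A P θ) {u : ℂ × ℂ}
    (hu : Mg L r u) : ‖dl A u‖ ≤ 1 / 50 := by
  have := dl_small hB H hu
  have hμ := H.μ1
  linarith

theorem snc_dl_ne (hB : Bs Λ F q Q) (H : Lw F q Q V A₀ M ε r L A P θ) {u : ℂ × ℂ}
    (hu : Mg L r u) : NZ.snc (dl A u) ≠ 0 := by
  intro h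
  have := snc_ne (z := dl A u) ((dl_small' hB H hu).trans (by norm_num))
  rw [h, norm_zero] at this
  linarith

/-- the two defining equations of the phase -/
theorem ph_eq (hB : Bs Λ F q Q) (H : Lw F q Q V A₀ M ε r L A P θ) {u : ℂ × ℂ}
    (hu : Mg L r u) :
    deriv F (θ u) * et Λ F q A P θ u = dl A u ∧ deriv q (θ u) * et Λ F q A P θ u = bt A P u ∧
    bt A P u * NZ.snc (dl A u) = (P (u.1 + u.2 / 2, u.2) - P (u.1 - u.2 / 2, u.2)) / 2 := by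
  have hs := snc_dl_ne hB H hu
  have hc := Bs.cne hB
  obtain ⟨-, l1, l2, l3⟩ := H.law u.1 u.2 hu.p hu.m
  have hb : bt A P u * NZ.snc (dl A u) =
      (P (u.1 + u.2 / 2, u.2) - P (u.1 - u.2 / 2, u.2)) / 2 := by
    rw [bt]; field_simp
  have e0 : (u.1, u.2) = u := rfl
  rw [e0] at l1 l2 l3
  have e1 : (A (u.1 + u.2 / 2, u.2) - A (u.1 - u.2 / 2, u.2)) / 2 = dl A u := rfl
  rw [e1, ← NZ.mul_snc (dl A u)] at l3
  have h4 : deriv F (θ u) * bt A P u = deriv q (θ u) * dl A u := by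
    have : NZ.snc (dl A u) * (deriv F (θ u) * bt A P u - deriv q (θ u) * dl A u) = 0 := by
      linear_combination deriv F (θ u) * hb + (1 / 2 : ℂ) * l3
    exact sub_eq_zero.1 ((mul_eq_zero.1 this).resolve_left hs)
  have hw := hB.wr (θ u)
  rw [Wr] at hw
  refine ⟨?_, ?_, hb⟩
  · rw [et, ← mul_div_assoc, div_eq_iff hc]
    linear_combination dl A u * hw - deriv (deriv F) (θ u) * h4
  · rw [et, ← mul_div_assoc, div_eq_iff hc]
    linear_combination bt A P u * hw -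
      (deriv (deriv q) (θ u) + q (θ u) * deriv F (θ u) ^ 2) * h4

/-- the outgoing line of the phase -/
theorem ph_out (hB : Bs Λ F q Q) (H : Lw F q Q V A₀ M ε r L A P θ) {u : ℂ × ℂ}
    (hu : Mg L r u) :
    aL F 1 (ph Λ F q A P θ u) = A (u.1 + u.2 / 2, u.2) ∧
    qL F q 1 (ph Λ F q A P θ u) = P (u.1 + u.2 / 2, u.2) := by
  obtain ⟨h1, h2, h3⟩ := ph_eq hB H hu
  obtain ⟨-, l1, l2, l3⟩ := H.law u.1 u.2 hu.p hu.m
  have e0 : (u.1, u.2) = u := rfl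
  rw [e0] at l1 l2 l3
  have e1 : (A (u.1 + u.2 / 2, u.2) - A (u.1 - u.2 / 2, u.2)) / 2 = dl A u := rfl
  constructor
  · rw [aL]
    simp only [ph]
    rw [h1, one_mul, ← e1]
    linear_combination (-(1 / 2 : ℂ)) * l1
  · rw [qL]
    simp only [ph]
    rw [h1]
    rw [e1] at l2
    linear_combination (-(1 / 2 : ℂ)) * l2 + NZ.snc (dl A u) * h2 + h3

theorem bound_et (hB : Bs Λ F q Q) (H : Lw F q Q V A₀ M ε r L A P θ) {u : ℂ × ℂ}
    (hu : Mg L r u) : ‖et Λ F q A P θ u - u.2 / 2‖ ≤ 1 / 100 * ‖u.2‖ := by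
  by_cases h0 : u.2 = 0
  · have e : et Λ F q A P θ u = 0 := by
      have h1 : dl A u = 0 := by rw [dl, h0]; simp
      have h2 : bt A P u = 0 := by rw [bt, h0]; simp
      rw [et, h1, h2]; simp
    rw [e, h0]; simp
  obtain ⟨g0, g1, s2, hd, -, hne, hle, -, T2⟩ := two_vert hB H hu h0
  have hμ := H.μ1
  have hA0 := H.A0
  have hr0 : 0 ≤ r := by have := hu.1; linarith [norm_nonneg u.2]
  have hδ := dl_small hB H hu
  have hδ' := dl_small' hB H hu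
  have hμ0 : 0 ≤ A₀ * (20 * r) := by positivity
  have hν := T2 (1 / 1000) (fun y hy => by
    have h1 : ‖dl A u - y‖ ≤ 21 / 1000 := by
      refine (norm_sub_le _ _).trans ?_
      linarith
    refine (norm_cos_sub_one_le (r := 21 / 1000) (by norm_num) h1).trans ?_
    nlinarith [norm_nonneg (dl A u - y)]) (by norm_num)
  obtain ⟨h1, h2⟩ := ph_out hB H hu
  -- Gl1 at the vertex is c (η snc δ)
  have h3 : Gl1 F q (A (u.1 + u.2 / 2, u.2)) (P (u.1 + u.2 / 2, u.2)) (θ u) =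
      (Λ : ℂ) ^ 3 * (et Λ F q A P θ u * NZ.snc (dl A u)) := by
    have h4 := Gi1_self (Φ := F) (q := q) (c := (Λ : ℂ) ^ 3) (v := ph Λ F q A P θ u)
      (hB.wr _)
    have e5 : deriv F (ph Λ F q A P θ u).1 * (ph Λ F q A P θ u).2 = dl A u :=
      (ph_eq hB H hu).1
    rw [e5] at h4
    rw [← show Gi1 F q (ph Λ F q A P θ u) (ph Λ F q A P θ u).1 =
      Gl1 F q (A (u.1 + u.2 / 2, u.2)) (P (u.1 + u.2 / 2, u.2)) (θ u) from by
        rw [Gi1, Gl1, h1, h2]; rfl]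
    exact h4
  have hc := Bs.cne hB
  rw [h3, mul_div_cancel_left₀ _ hc] at hν
  set η := et Λ F q A P θ u with hη
  set w := u.2 with hw
  set d := θ (u.1 + w, w) - θ u with hdd
  have hw0 := norm_nonneg w
  have hη0 := norm_nonneg η
  have h6 : ‖NZ.snc (dl A u) - 1‖ ≤ 1 / 1000 := by
    refine (norm_snc_sub_one_le (hδ'.trans (by norm_num))).trans ?_
    nlinarith [norm_nonneg (dl A u)]
  have h7 : ‖η * NZ.snc (dl A u) - w / 2‖ ≤ 3 / 1000 * ‖w‖ := by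
    have e : η * NZ.snc (dl A u) - w / 2 = (η * NZ.snc (dl A u) - d / 2) + (d - w) / 2 := by ring
    rw [e]
    refine (norm_add_le _ _).trans ?_
    have h8 : ‖(d - w) / 2‖ ≤ 1 / 2000 * ‖w‖ := by
      rw [norm_div]
      have e2 : ‖(2 : ℂ)‖ = 2 := by norm_num
      rw [e2]
      linarith
    have h9 : ‖d‖ * (1 / 1000 + 1 / 1000) ≤ 1001 / 1000 * ‖w‖ * (1 / 1000 + 1 / 1000) := by
      gcongr
    linarith
  have h10 : ‖η * (NZ.snc (dl A u) - 1)‖ ≤ ‖η‖ * (1 / 1000) := by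
    rw [norm_mul]; gcongr
  have h11 : η - w / 2 = (η * NZ.snc (dl A u) - w / 2) - η * (NZ.snc (dl A u) - 1) := by ring
  have h12 : ‖η - w / 2‖ ≤ 3 / 1000 * ‖w‖ + ‖η‖ * (1 / 1000) := by
    rw [h11]
    refine (norm_sub_le _ _).trans ?_
    linarith
  have h13 : ‖η‖ ≤ ‖η - w / 2‖ + ‖w‖ / 2 := by
    have := norm_add_le (η - w / 2) (w / 2)
    have e2 : ‖w / 2‖ = ‖w‖ / 2 := by
      rw [norm_div]; norm_num
    rw [sub_add_cancel, e2] at this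
    exact this
  linarith

/-- **the recursion** -/
theorem ph_rec (hB : Bs Λ F q Q) (H : Lw F q Q V A₀ M ε r L A P θ) {V' : Set ℂ} {A' B' M' : ℝ}
    (T : Bx F q Q ((Λ : ℂ) ^ 3) V' A' B' M') {u : ℂ × ℂ} (hu : Mg L r u)
    (hu' : Mg L r (u.1 + u.2, u.2)) (h0 : u.2 ≠ 0) (ad : Ad V' A' B' M' (ph Λ F q A P θ u)) :
    ph Λ F q A P θ (u.1 + u.2, u.2) = SX F q ((Λ : ℂ) ^ 3) (ph Λ F q A P θ u) := by
  obtain ⟨g0, g1, s2, hd, -, hne, hle, -, -⟩ := two_vert hB H hu h0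
  obtain ⟨o1, o2⟩ := ph_out hB H hu
  obtain ⟨q1, q2, q3⟩ := ph_eq hB H hu'
  have hη := bound_et hB H hu
  have hs1 := snc_dl_ne hB H hu'
  obtain ⟨-, l1, l2, l3⟩ := H.law (u.1 + u.2) u.2 hu'.p hu'.m
  set y := ph Λ F q A P θ u with hy
  set w := u.2 with hw
  set x₁ := θ (u.1 + w, w) with hx₁
  have hw0 : 0 < ‖w‖ := norm_pos_iff.2 h0
  have y1 : y.1 = θ u := rfl
  have y2 : y.2 = et Λ F q A P θ u := rfl
  rw [← y2] at hη
  have hy2 : 49 / 100 * ‖w‖ ≤ ‖y.2‖ := by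
    have h1 : ‖w / 2‖ ≤ ‖y.2‖ + ‖y.2 - w / 2‖ := by
      have := norm_sub_le y.2 (y.2 - w / 2)
      have e : y.2 - (y.2 - w / 2) = w / 2 := by ring
      rwa [e] at this
    have e2 : ‖w / 2‖ = ‖w‖ / 2 := by rw [norm_div]; norm_num
    rw [e2] at h1
    linarith
  have hy0 : y.2 ≠ 0 := by
    intro h
    rw [h, norm_zero] at hy2
    linarith
  -- the root
  set s := (x₁ - y.1) / y.2 with hs
  have hsx : y.1 + y.2 * s = x₁ := by rw [hs]; field_simp; ring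
  have hsm : s ∈ ball (2 : ℂ) (1 / 4) := by
    rw [mem_ball_iff_norm]
    have e : s - 2 = (x₁ - y.1 - 2 * y.2) / y.2 := by rw [hs]; field_simp
    rw [e, norm_div, div_lt_iff₀ (norm_pos_iff.2 hy0)]
    have e3 : x₁ - y.1 - 2 * y.2 = (x₁ - y.1 - w) - 2 * (y.2 - w / 2) := by ring
    rw [e3]
    refine (norm_sub_le _ _).trans_lt ?_
    rw [norm_mul]
    have e4 : ‖(2 : ℂ)‖ = 2 := by norm_num
    rw [e4, y1]
    linarith
  have hGi : ∀ x, Gi F q y x = Gl F q (A (u.1 + w / 2, w)) (P (u.1 + w / 2, w)) x := by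
    intro x
    rw [Gi, Gl, o1, o2]
  have hK : Kt F q ((Λ : ℂ) ^ 3) y s = 0 := by
    rw [Kt, if_neg hy0, hsx, hGi, g1, zero_div]
  have hX := (Xr_spec T ad hy0).2.2.2 s hsm hK
  have hT1 : T1 F q ((Λ : ℂ) ^ 3) y = x₁ := by
    rw [T1, ← hX, hsx]
  -- the new lines
  have em : u.1 + w - w / 2 = u.1 + w / 2 := by ring
  have hdl : dl A (u.1 + w, w) =
      (A (u.1 + w + w / 2, w) - A (u.1 + w - w / 2, w)) / 2 := rfl
  have hD1 : D1 F q ((Λ : ℂ) ^ 3) y = -dl A (u.1 + w, w) := by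
    rw [D1, hT1, o1, hdl]
    rw [em] at l1 ⊢
    linear_combination (1 / 2 : ℂ) * l1
  have hB1 : B1 F q ((Λ : ℂ) ^ 3) y = bt A P (u.1 + w, w) := by
    rw [B1, hT1, hD1, o2, Complex.cos_neg, snc_neg, div_eq_iff hs1]
    have l2' : P (u.1 + w + w / 2, w) + P (u.1 + w - w / 2, w) =
      2 * q x₁ * cos (dl A (u.1 + w, w)) := l2
    rw [q3]
    simp only
    rw [em] at l2' ⊢
    linear_combination (-(1 / 2 : ℂ)) * l2'
  refine Prod.ext ?_ ?_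
  · show x₁ = T1 F q ((Λ : ℂ) ^ 3) y
    rw [hT1]
  · show et Λ F q A P θ (u.1 + w, w) = (-(D1 F q ((Λ : ℂ) ^ 3) y) *
      (deriv (deriv q) (T1 F q ((Λ : ℂ) ^ 3) y) + q (T1 F q ((Λ : ℂ) ^ 3) y) *
        deriv F (T1 F q ((Λ : ℂ) ^ 3) y) ^ 2)
      - deriv (deriv F) (T1 F q ((Λ : ℂ) ^ 3) y) * B1 F q ((Λ : ℂ) ^ 3) y) / (Λ : ℂ) ^ 3
    rw [hT1, hD1, hB1, neg_neg, et]

/-- analyticity of the phase -/
theorem ph_an (hB : Bs Λ F q Q) (H : Lw F q Q V A₀ M ε r L A P θ) {u : ℂ × ℂ}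
    (hu : Mg L r u) : AnalyticAt ℂ (ph Λ F q A P θ) u := by
  have hθ := H.aθ _ hu.z
  have g1 : AnalyticAt ℂ (fun y : ℂ × ℂ => (y.1 + y.2 / 2, y.2)) u :=
    (analyticAt_fst.add (analyticAt_snd.div_const)).prod analyticAt_snd
  have g2 : AnalyticAt ℂ (fun y : ℂ × ℂ => (y.1 - y.2 / 2, y.2)) u :=
    (analyticAt_fst.sub (analyticAt_snd.div_const)).prod analyticAt_snd
  have a1 : AnalyticAt ℂ (fun y : ℂ × ℂ => A (y.1 + y.2 / 2, y.2)) u :=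
    (H.aA _ hu.p).comp_of_eq g1 rfl
  have a2 : AnalyticAt ℂ (fun y : ℂ × ℂ => A (y.1 - y.2 / 2, y.2)) u :=
    (H.aA _ hu.m).comp_of_eq g2 rfl
  have p1 : AnalyticAt ℂ (fun y : ℂ × ℂ => P (y.1 + y.2 / 2, y.2)) u :=
    (H.aP _ hu.p).comp_of_eq g1 rfl
  have p2 : AnalyticAt ℂ (fun y : ℂ × ℂ => P (y.1 - y.2 / 2, y.2)) u :=
    (H.aP _ hu.m).comp_of_eq g2 rfl
  have hdl : AnalyticAt ℂ (dl A) u := (a1.sub a2).div_const
  have hsnc : AnalyticAt ℂ (fun y => NZ.snc (dl A y)) u :=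
    (NZ.snc_an _).comp hdl
  have hbt : AnalyticAt ℂ (bt A P) u :=
    ((p1.sub p2).div_const).div hsnc (snc_dl_ne hB H hu)
  have cc : ∀ {g : ℂ → ℂ}, Differentiable ℂ g → AnalyticAt ℂ (fun y => g (θ y)) u :=
    fun hg => (hg.analyticAt (θ u)).comp_of_eq hθ rfl
  have b1 : AnalyticAt ℂ (fun y => deriv (deriv q) (θ y)) u :=
    ((hB.dq.analyticAt (θ u)).deriv.deriv).comp_of_eq hθ rfl
  have b2 : AnalyticAt ℂ (fun y => q (θ y)) u := cc hB.dq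
  have b3 : AnalyticAt ℂ (fun y => deriv F (θ y)) u :=
    ((hB.dF.analyticAt (θ u)).deriv).comp_of_eq hθ rfl
  have b4 : AnalyticAt ℂ (fun y => deriv (deriv F) (θ y)) u :=
    ((hB.dF.analyticAt (θ u)).deriv.deriv).comp_of_eq hθ rfl
  exact hθ.prod (((hdl.mul (b1.add (b2.mul (b3.pow 2)))).sub (b4.mul hbt)).div_const)

end Vale.Agent.P097.H690.LD
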